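import Crest.Agent.R10.U.Hat

/-! # Row 10, block U: Lie elements of weight `≥ 3` mod 2 come from `TV`. -/

noncomputable section
namespace Crest.Agent.R10
open FreeAlgebra (ι)
open RO

theorem jV_shV (G : TV) : jV (shV G) = ⁅xx F2, jV G⁆ := by
  induction G using FreeAlgebra.induction with
  | grade0 c => simp [Algebra.algebraMap_eq_smul_one, shV, Ring.lie_def]
  | grade1 p => simp [shV, jV, adp_succ]
  | mul v w hv hw =>
    rw [shV, der_mul, ← shV, map_add, map_mul, map_mul, hv, hw, map_mul]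
    simp only [Ring.lie_def]; noncomm_ring
  | add v w hv hw =>
    rw [map_add, map_add, hv, hw, map_add]; simp only [Ring.lie_def]; noncomm_ring

theorem shV_mem_LS {n : ℕ} {G : TV} (hG : G ∈ LS F2 (ι F2) wV n) :
    shV G ∈ LS F2 (ι F2) wV (n + 1) := by
  refine der_mem_LS _ (fun p => ?_) hG
  exact mem_LS_of (K := F2) (ι F2) wV (p.1, p.2 + 1)

/-- the image of the Lie elements of `TV`. -/
def VV (n : ℕ) : Submodule F2 (T F2) := (LS F2 (ι F2) wV n).map jV.toLinearMap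

theorem lie_mem_VV {m n : ℕ} {a b : T F2} (ha : a ∈ VV m) (hb : b ∈ VV n) :
    ⁅a, b⁆ ∈ VV (m + n) := by
  obtain ⟨G, hG, rfl⟩ := ha
  obtain ⟨H, hH, rfl⟩ := hb
  exact ⟨_, lie_mem_LS hG hH, map_lie' jV G H⟩
theorem lie_xx_mem_VV {n : ℕ} {a : T F2} (ha : a ∈ VV n) : ⁅xx F2, a⁆ ∈ VV (n + 1) := by
  obtain ⟨G, hG, rfl⟩ := ha
  exact ⟨_, shV_mem_LS hG, jV_shV G⟩
theorem gen_mem_VV (s : Bool) (i : ℕ) : jV (ι F2 (s, i)) ∈ VV (i + 2) :=
  ⟨_, mem_LS_of (K := F2) (ι F2) wV (s, i), rfl⟩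
theorem X_mem_VV : yy F2 * yy F2 ∈ VV 2 := by simpa [jV] using gen_mem_VV false 0
theorem Y_mem_VV : (xx F2 + yy F2) * (xx F2 + yy F2) ∈ VV 2 := by
  simpa [jV] using gen_mem_VV true 0

theorem lie_xy_mem_VV {n : ℕ} {w : T F2} (hw : w ∈ VV n) :
    ⁅⁅xx F2, yy F2⁆, w⁆ ∈ VV (n + 2) := by
  have h1 := lie_mem_VV X_mem_VV hw
  have h2 := lie_mem_VV Y_mem_VV hw
  have h3 := lie_xx_mem_VV (lie_xx_mem_VV hw)
  rw [add_comm 2 n] at h1 h2
  convert add_mem (add_mem h1 h2) h3 using 1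
  char2

theorem lie_yy_gen (s : Bool) (i : ℕ) : ⁅yy F2, jV (ι F2 (s, i))⁆ ∈ VV (i + 2 + 1) := by
  induction i with
  | zero =>
    cases s
    · have : ⁅yy F2, jV (ι F2 (false, 0))⁆ = 0 := by simp [jV, Ring.lie_def, mul_assoc]
      rw [this]; exact zero_mem _
    · have : ⁅yy F2, jV (ι F2 (true, 0))⁆ = ⁅xx F2, (xx F2 + yy F2) * (xx F2 + yy F2)⁆ := by
        simp only [jV, evV_ι, adp_zero, if_true]; char2
      rw [this]; exact lie_xx_mem_VV Y_mem_VV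
  | succ i ih =>
    have e : jV (ι F2 (s, i + 1)) = ⁅xx F2, jV (ι F2 (s, i))⁆ := by simp [jV, adp_succ]
    have h1 := lie_xx_mem_VV ih
    have h2 := lie_xy_mem_VV (gen_mem_VV s i)
    rw [e]
    convert add_mem h1 h2 using 1
    char2

/-- `V n := (LS wV n).map jV` is closed under brackets and `ad x`.  For `ad y`: on generators by
induction on `i`: `[y,X] = 0`, `[y,Y] = [x,Y]`, `[y,[x,w]] = [x,[y,w]] + [[x,y],w]` and
`[x,y] = X + Y + x²`, so `[[x,y],w] = [X,w] + [Y,w] + [x,[x,w]]` (characteristic 2); on brackets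
by the Leibniz rule (`LS_le`). -/
theorem lie_yy_mem_jV {n : ℕ} {w : T F2} (hw : w ∈ (LS F2 (ι F2) wV n).map jV.toLinearMap) :
    ⁅yy F2, w⁆ ∈ (LS F2 (ι F2) wV (n + 1)).map jV.toLinearMap := by
  obtain ⟨G, hG, rfl⟩ := hw
  have key := LS_le (K := F2) (g := ι F2) (wt := wV)
    (fun n => LS F2 (ι F2) wV n ⊓ (VV (n + 1)).comap
      ((LinearMap.mulLeft F2 (yy F2) - LinearMap.mulRight F2 (yy F2)) ∘ₗ jV.toLinearMap))
    (fun p => ⟨mem_LS_of _ _ p, lie_yy_gen p.1 p.2⟩) (fun m n a b ha hb => by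
      refine ⟨lie_mem_LS ha.1 hb.1, ?_⟩
      have h1 : ⁅⁅yy F2, jV a⁆, jV b⁆ ∈ VV (m + 1 + n) := lie_mem_VV ha.2 ⟨b, hb.1, rfl⟩
      have h2 : ⁅jV a, ⁅yy F2, jV b⁆⁆ ∈ VV (m + (n + 1)) := lie_mem_VV ⟨a, ha.1, rfl⟩ hb.2
      rw [show m + 1 + n = m + n + 1 by ring] at h1
      change ⁅yy F2, jV ⁅a, b⁆⁆ ∈ VV (m + n + 1)
      convert add_mem h1 h2 using 1
      rw [map_lie']; simp only [Ring.lie_def]; noncomm_ring) n hG
  exact key.2

theorem lie_L_mem_VV {n : ℕ} {m : T F2} (hm : m ∈ L F2 n) {k : ℕ} {w : T F2} (hw : w ∈ VV k) :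
    ⁅m, w⁆ ∈ VV (k + n) := by
  let P : ℕ → Submodule F2 (T F2) := fun n =>
    { carrier := {m | ∀ k, ∀ w ∈ VV k, ⁅m, w⁆ ∈ VV (k + n)}
      add_mem' := fun {a b} ha hb k w hw => by
        convert add_mem (ha k w hw) (hb k w hw) using 1
        simp only [Ring.lie_def]; noncomm_ring
      zero_mem' := fun k w hw => by simp [Ring.lie_def]
      smul_mem' := fun c a ha k w hw => by
        convert Submodule.smul_mem _ c (ha k w hw) using 1
        simp [Ring.lie_def, smul_sub] }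
  refine LS_le P (fun i => ?_) (fun m n a b ha hb k w hw => ?_) n hm k w hw
  · fin_cases i
    · exact fun k w hw => lie_xx_mem_VV hw
    · exact fun k w hw => lie_yy_mem_jV hw
  · have h1 := ha _ _ (hb k w hw)
    have h2 := hb _ _ (ha k w hw)
    rw [show k + n + m = k + (m + n) by ring] at h1
    rw [show k + m + n = k + (m + n) by ring] at h2
    convert sub_mem h1 h2 using 1
    simp only [Ring.lie_def]; noncomm_ring

theorem lie_L_xy {n : ℕ} {m : T F2} (hm : m ∈ L F2 n) (hn : n = 1 ∨ n = 2) :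
    ⁅m, ⁅xx F2, yy F2⁆⁆ ∈ VV (n + 2) := by
  rcases hn with rfl | rfl
  · obtain ⟨α, β, rfl⟩ := mem_L_one hm
    have h1 := lie_xx_mem_VV X_mem_VV
    have h2 := lie_xx_mem_VV Y_mem_VV
    have e1 : ⁅xx F2, ⁅xx F2, yy F2⁆⁆ = ⁅xx F2, yy F2 * yy F2⁆ +
      ⁅xx F2, (xx F2 + yy F2) * (xx F2 + yy F2)⁆ := by char2
    have e2 : ⁅yy F2, ⁅xx F2, yy F2⁆⁆ = ⁅xx F2, yy F2 * yy F2⁆ := by char2
    have : ⁅α • xx F2 + β • yy F2, ⁅xx F2, yy F2⁆⁆ =
        α • ⁅xx F2, ⁅xx F2, yy F2⁆⁆ + β • ⁅yy F2, ⁅xx F2, yy F2⁆⁆ := by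
      generalize ⁅xx F2, yy F2⁆ = c
      simp only [Ring.lie_def, add_mul, mul_add, smul_mul_assoc, mul_smul_comm, smul_sub]; abel
    rw [this, e1, e2]
    exact add_mem (Submodule.smul_mem _ _ (add_mem h1 h2)) (Submodule.smul_mem _ _ h1)
  · obtain ⟨c, rfl⟩ := mem_L_two hm
    simp [Ring.lie_def]

/-- `LS_le` with `P n = {m | ∀ k, ∀ w ∈ V k, ⁅m,w⁆ ∈ V (k+n)}` (Jacobi); then for a bracket
`⁅a,b⁆` of weights `p+q ≥ 3`: if `p ≥ 3` or `q ≥ 3` use that; otherwise `mem_L_one`, `mem_L_two`: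
`[x,[x,y]] = X_1 + Y_1`, `[y,[x,y]] = X_1`, `[[x,y],[x,y]] = 0`. -/
theorem exists_jV {N : ℕ} {f : T F2} (hf : f ∈ L F2 N) (hN : 3 ≤ N) :
    ∃ G ∈ LS F2 (ι F2) wV N, f = jV G := by
  have lsm : ∀ (c : F2) (a w : T F2), ⁅a, c • w⁆ = c • ⁅a, w⁆ := fun c a w => by
    simp [Ring.lie_def, smul_sub]
  let P : ℕ → Submodule F2 (T F2) := fun n => L F2 n ⊓ (if 3 ≤ n then VV n else ⊤)
  have key := LS_le (K := F2) (g := ι F2) (wt := fun _ : Fin 2 => 1) P
    (fun i => ⟨mem_LS_of _ _ i, by simp⟩) (fun m n a b ha hb => by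
      refine ⟨lie_mem_LS ha.1 hb.1, ?_⟩
      have ha2 := ha.2
      have hb2 := hb.2
      have skew : ⁅a, b⁆ = ⁅b, a⁆ := by char2
      split_ifs with h
      · by_cases hn : 3 ≤ n
        · rw [if_pos hn] at hb2
          rw [add_comm]; exact lie_L_mem_VV ha.1 hb2
        by_cases hm : 3 ≤ m
        · rw [if_pos hm] at ha2
          rw [skew]; exact lie_L_mem_VV hb.1 ha2
        by_cases hn2 : n = 2
        · subst hn2
          obtain ⟨c, rfl⟩ := mem_L_two hb.1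
          have := Submodule.smul_mem _ c (lie_L_xy ha.1 (by omega))
          rwa [lsm]
        · obtain rfl : m = 2 := by omega
          obtain ⟨c, rfl⟩ := mem_L_two ha.1
          have := Submodule.smul_mem _ c (lie_L_xy hb.1 (by omega))
          rwa [skew, add_comm, lsm]
      · trivial) N hf
  have h2 := key.2
  rw [if_pos hN] at h2
  obtain ⟨G, hG, rfl⟩ := h2
  exact ⟨G, hG, rfl⟩

/-- `ev_jV` with `q² = 0`, `(p+q)² = mat (Lm Y0) * 0 *` (`mat_mul`, `mat_add`), `evV_zero_left`,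
intertwine with `LinearMap.inl`, `evY_shY`. -/
theorem PP_jV (G : TV) : PP (jV G) = pY G := by
  simp only [PP, LinearMap.comp_apply, AlgHom.toLinearMap_apply, LinearMap.applyₗ_apply_apply]
  have e1 : (mat 0 0 1 0 : Module.End F2 (TY × TY)) * mat 0 0 1 0 = 0 := by
    simp [mat_mul, mat_zero]
  have e2 : ∃ q s, (mat shY (shY * shY + Lm F2 (ι F2 0)) 0 shY + mat 0 0 1 0) *
      (mat shY (shY * shY + Lm F2 (ι F2 0)) 0 shY + mat 0 0 1 0) = mat (Lm F2 (ι F2 0)) q 0 s := by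
    rw [mat_add, mat_mul]
    exact ⟨_, _, mat_congr (by char2) rfl (by char2) rfl⟩
  obtain ⟨q, s, e2⟩ := e2
  rw [ev_jV, e1, e2, ← mat_zero]
  have := intertwine_evV (LinearMap.inl F2 TY TY) shY 0 (Lm F2 (ι F2 0))
    (mat shY (shY * shY + Lm F2 (ι F2 0)) 0 shY) (mat 0 0 0 0) (mat (Lm F2 (ι F2 0)) q 0 s)
    (fun m => by simp) (fun m => by simp) (fun m => by simp) G 1
  rw [LinearMap.inl_apply, LinearMap.inl_apply] at this
  rw [← this, evV_zero_left, evY_shY]; simp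

theorem pY_mem_LS {n : ℕ} {G : TV} (hG : G ∈ LS F2 (ι F2) wV n) : pY G ∈ LS F2 (ι F2) wY n := by
  refine map_mem_LS pY (fun p => ?_) hG
  obtain ⟨s, i⟩ := p
  cases s
  · simp [pY]
  · simpa [pY] using mem_LS_of (K := F2) (ι F2) wY i

end Crest.Agent.R10
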