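import Crest.Agent.R10.U.InstA
import Crest.Agent.R10.U.Lazard

/-! # Row 10, block U: instances (b), (c); multiplicativity. -/

noncomputable section
namespace Crest.Agent.R10
open FreeAlgebra (ι)

/-- data for (c). -/
def roC : RO TY where
  z := shY
  X := 0
  e := 0
  f := Lm F2 (ι F2 0)
  ζ := shY
  α := 0
  β := 0
  n0 := 1
  ζz := by simp [Ring.lie_def]
  ζX := by simp [Ring.lie_def]
  ζe := rfl
  ζf := by simp [Ring.lie_def]
  αz := lie0l _
  αX := by simp [Ring.lie_def]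
  αe := by simp [Ring.lie_def]
  αf := by simp [Ring.lie_def]
  βz := lie0l _
  βX := lie0l _
  βe := by simp [Ring.lie_def]
  βf := by simp [Ring.lie_def]
  ζ0 := der_one _
  α0 := rfl
  β0 := rfl

theorem adp_zero_left {A : Type} [Ring A] (w : A) (i : ℕ) (hi : i ≠ 0) : adp 0 i w = 0 := by
  cases i with
  | zero => exact absurd rfl hi
  | succ i => rw [adp_succ, lie0l]

theorem evV_zero_eq_zero {A : Type} [Ring A] [Algebra F2 A] {n : ℕ} {G : TV}
    (hG : G ∈ LS F2 (ι F2) wV n) (hn : 3 ≤ n) {p q : A} (h : Commute p q) : evV 0 p q G = 0 := by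
  have key : ∀ (i : Bool × ℕ), adp (0 : A) i.2 (if i.1 then q else p) = 0 ∨
      adp (0 : A) i.2 (if i.1 then q else p) = p ∨ adp (0 : A) i.2 (if i.1 then q else p) = q := by
    rintro ⟨s, i⟩
    by_cases hi : i = 0
    · subst hi; cases s <;> simp
    · exact Or.inl (adp_zero_left _ _ hi)
  refine lift_eq_zero_of_commute hG _ (fun i j => ?_) (fun i hi => ?_)
  · rcases key i with h1 | h1 | h1 <;> rcases key j with h2 | h2 | h2 <;> rw [h1, h2] <;>
      first | exact Commute.zero_left _ | exact Commute.zero_right _ | exact Commute.refl _ |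
        exact h | exact h.symm
  · exact adp_zero_left _ _ (by change i.2 + 2 = n at hi; omega)

/-- (c): `read1` for `N = TY`, `z = ζ = shY`, `f = Lm Y0`, `X = e = α = β = 0`, `n0 = 1`.
`ev 0 z ψ = 0` (`ev_eq_zero_of_commute`); `evV 0 f f G = evV 0 f 0 G = 0`
(`lift_eq_zero_of_commute`: the letter of weight `n ≥ 3` has `i ≥ 1`); `evV_zero_right`, `evY_shY`. -/
theorem pX_eq_zero {n : ℕ} {G : TV} (h : GrtR F2 n (jV G)) (hG : G ∈ LS F2 (ι F2) wV n)
    (hn : 3 ≤ n) : pX G = 0 := by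
  have h0 := roC.read1 h (by omega)
  have e1 : ev F2 (0 : Module.End F2 TY) shY (jV G) = 0 :=
    ev_eq_zero_of_commute h.lie (by omega) (Commute.zero_left _)
  have e2 : evV (0 : Module.End F2 TY) (Lm F2 (ι F2 0)) 0 G = 0 :=
    evV_zero_eq_zero hG hn (Commute.zero_right _)
  simp only [roC, add_zero, zero_add, mul_zero, lie0r, add_self_two, e1,
    evV_zero_eq_zero hG hn (Commute.refl _), e2] at h0
  rw [evV_zero_right, evY_shY] at h0
  simpa using h0

/-- data for (b). -/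
def roB : RO TV where
  z := shV
  X := Lm F2 (ι F2 (false, 0))
  e := 0
  f := Lm F2 (ι F2 (true, 0))
  ζ := der F2 (fun p => if p.1 then ι F2 (true, p.2 + 1) else 0)
  α := der F2 (fun p => (shV ^ p.2) ⁅ι F2 (false, 0), ι F2 (true, 0)⁆)
  β := 0
  n0 := 1
  ζz := by
    rw [shV, lie_der_der, ← der_zero]; congr 1; funext ⟨s, i⟩; cases s <;> simp
  ζX := by rw [lie_der_Lm, lie0r]; simp [map_zero (Algebra.lmul F2 TV)]
  ζe := by rw [lie0r, lie0r]
  ζf := by rw [lie_der_Lm, lie0r, lie0r, shV, lie_der_Lm]; simp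
  αz := by
    conv_lhs => arg 2; rw [shV]
    rw [lie_der_der, ← der_zero, ← shV]; congr 1; funext ⟨s, i⟩
    simp [pow_succ']
  αX := by
    rw [lie_der_Lm, lie0r, add_zero, ← map_lie' (Algebra.lmul F2 TV), der_ι]; rfl
  αe := by simp [Ring.lie_def]
  αf := by
    rw [lie_der_Lm, lie0r, add_zero, ← map_lie' (Algebra.lmul F2 TV), der_ι]; rfl
  βz := lie0l _
  βX := lie0l _
  βe := by simp [Ring.lie_def]
  βf := by simp [Ring.lie_def]
  ζ0 := der_one _
  α0 := der_one _
  β0 := rfl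

/-- (b): `read3` for `N = TV`, `z = shV`, `X = Lm X0`, `f = Lm Y0`, `e = β = 0`, `n0 = 1`,
`ζ = der (X_i ↦ 0, Y_i ↦ Y_{i+1})`, `α = der ((s,i) ↦ (shV^i) ⁅X0,Y0⁆)` (`lie_der_der`, `lie_der_Lm`).
`evV_shV`, `evV_zero_left`, `evV_zero_right`, `evY_shV`. -/
theorem eq_inX_pX {n : ℕ} {G : TV} (h : GrtR F2 n (jV G)) (hn : 2 ≤ n) (h0 : pY G = 0) :
    G = inX (pX G) := by
  have h1 := roB.read3 h hn
  have e1 : ev F2 shV shV (jV G) = 0 := ev_eq_zero_of_commute h.lie hn (Commute.refl _)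
  simp only [roB, add_zero, mul_zero, lie0r, e1] at h1
  rw [evV_zero_left, h0, map_zero, evV_shV, evV_zero_right, evY_shV] at h1
  simp only [add_zero, LinearMap.add_apply, Lm_apply, mul_one] at h1
  rw [← sub_eq_zero, sub_eq_two, h1]

theorem pY_shV (G : TV) : pY (shV G) = shY (pY G) := by
  induction G using FreeAlgebra.induction with
  | grade0 c => simp [Algebra.algebraMap_eq_smul_one, shV, shY]
  | grade1 p => obtain ⟨s, i⟩ := p; cases s <;> simp [shV, shY, pY]
  | mul v w hv hw =>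
    rw [shV, der_mul, ← shV, map_add, map_mul, map_mul, hv, hw, map_mul, shY, der_mul]
  | add v w hv hw => simp [hv, hw]

theorem pY_shV_pow (i : ℕ) (G : TV) (h : pY G = 0) : pY ((shV ^ i) G) = 0 := by
  induction i with
  | zero => simpa using h
  | succ i ih => rw [pow_succ', Module.End.mul_apply, pY_shV, ih, map_zero]
theorem jV_shV_pow (i : ℕ) (G : TV) : jV ((shV ^ i) G) = adp (xx F2) i (jV G) := by
  induction i with
  | zero => simp
  | succ i ih => rw [pow_succ', Module.End.mul_apply, jV_shV, ih, adp_succ]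
theorem Dr_adp (σ w : T F2) (i : ℕ) : Dr F2 σ (adp (xx F2) i w) = adp (xx F2) i (Dr F2 σ w) := by
  induction i with
  | zero => rfl
  | succ i ih =>
    have : Dr F2 σ (xx F2) = 0 := der_ι _ 0
    rw [adp_succ, Dr, der_lie, ← Dr, this, lie0l, zero_add, ih, adp_succ]

/-- `G'' = G*G' + der v G'` with `v (false,i) = (shV^i) ⁅X0,G⁆`, `v (true,i) = (shV^i) ⁅Y0, swV G⁆`.
`Dr σ` kills `x`, `Dr σ (y²) = ⁅y²,σ⁆`, `Dr σ (x+y) = ⁅y,σ⁆ = ⁅x+y, σ(x,x+y)⁆` by the special
condition, `σ(x,x+y) = jV (swV G)` (`ev_jV`, `evV_swV`); so `jV (der v G') = Dr σ (jV G')` (both are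
derivations along `jV`).  `pY ∘ v = 0` (`pY_shV`, `pY_swV`), so `pY (der v G') = 0` (`lift_der`). -/
theorem Op_jV {G : TV} (hs : spc F2 (jV G) (xx F2) (yy F2) = 0) (hX : pX G = 0) (G' : TV) :
    ∃ G'', Op F2 (jV G) (jV G') = jV G'' ∧ pY G'' = pY G * pY G' := by
  set v : Bool × ℕ → TV := fun p => (shV ^ p.2)
    (if p.1 then ⁅ι F2 (true, 0), swV G⁆ else ⁅ι F2 (false, 0), G⁆) with hv
  have hx : Dr F2 (jV G) (xx F2) = 0 := der_ι _ 0
  have hy : Dr F2 (jV G) (yy F2) = ⁅yy F2, jV G⁆ := der_ι _ 1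
  have jX : jV (ι F2 (false, 0)) = yy F2 * yy F2 := by simp [jV]
  have jY : jV (ι F2 (true, 0)) = (xx F2 + yy F2) * (xx F2 + yy F2) := by simp [jV]
  have hsw : ev F2 (xx F2) (xx F2 + yy F2) (jV G) = jV (swV G) := by
    rw [ev_jV, jV, evV_swV, ← add_assoc, add_self_two, zero_add]
  have hxy : Dr F2 (jV G) (xx F2 + yy F2) = ⁅xx F2 + yy F2, jV (swV G)⁆ := by
    rw [spc, neg_eq_two, sub_eq_two, ev_self, hsw] at hs
    rw [map_add, hx, hy, zero_add, ← sub_eq_zero, sub_eq_two, hs]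
  have sq : ∀ w c : T F2, Dr F2 (jV G) w = ⁅w, c⁆ → Dr F2 (jV G) (w * w) = ⁅w * w, c⁆ := by
    intro w c h
    rw [Dr, der_mul, ← Dr, h]; simp only [Ring.lie_def]; noncomm_ring
  have key : ∀ w, jV (der F2 v w) = Dr F2 (jV G) (jV w) := by
    intro w
    induction w using FreeAlgebra.induction with
    | grade0 c => simp [Algebra.algebraMap_eq_smul_one, Dr]
    | grade1 p =>
      obtain ⟨s, i⟩ := p
      rw [der_ι, hv]
      cases s
      · simp only [Bool.false_eq_true, if_false]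
        rw [jV_shV_pow, map_lie', jX, ← sq _ _ hy, ← Dr_adp]; simp [jV]
      · simp only [if_true]
        rw [jV_shV_pow, map_lie', jY, ← sq _ _ hxy, ← Dr_adp]; simp [jV]
    | mul a b ha hb =>
      rw [der_mul, map_add, map_mul, map_mul, ha, hb, map_mul, Dr, der_mul]
    | add a b ha hb => simp [ha, hb]
  refine ⟨G * G' + der F2 v G', ?_, ?_⟩
  · rw [map_add, map_mul, key]; rfl
  · have : pY (der F2 v G') = 0 := by
      rw [pY, lift_der, ← pY]
      have : (fun i => pY (v i)) = 0 := by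
        funext ⟨s, i⟩
        apply pY_shV_pow
        cases s
        · simp [map_lie', pY, lie0l]
        · simp [map_lie', pY_swV, hX, lie0r]
      rw [this, dA_zero]
    rw [map_add, map_mul, this, add_zero]

end Crest.Agent.R10
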