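import Crest.Agent.R10.U.Defs

/-! # Row 10, block U: the lowest-length part only involves odd letters. -/

noncomputable section
namespace Crest.Agent.R10
open FreeAlgebra (ι)

/-- `(g,h)`-degree on `T3` (letters `z,g,h`). -/
abbrev wgh : Fin 3 → ℕ := ![0, 1, 1]

theorem a3_mem : a3 F2 ∈ Ge F2 wgh 0 := Hom_le_Ge wgh 0 (ι_mem_Hom wgh 0)
theorem b3_mem : b3 F2 ∈ Hom F2 wgh 1 := ι_mem_Hom wgh 1
theorem e3_mem : e3 F2 ∈ Hom F2 wgh 1 := ι_mem_Hom wgh 2
theorem adp_mem_Hom {w : T3 F2} {k : ℕ} (hw : w ∈ Hom F2 wgh k) (i : ℕ) :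
    adp (a3 F2) i w ∈ Hom F2 wgh k := by
  induction i with
  | zero => exact hw
  | succ i ih =>
    have ha : a3 F2 ∈ Hom F2 wgh 0 := ι_mem_Hom wgh 0
    rw [adp_succ, Ring.lie_def]
    exact sub_mem (by simpa using mul_mem_Hom wgh ha ih) (by simpa using mul_mem_Hom wgh ih ha)
theorem der_mem_Ge (u : Fin 3 → T3 F2) (s : ℕ) (hu : ∀ i, u i ∈ Ge F2 wgh (wgh i + s)) {k : ℕ}
    {w : T3 F2} (hw : w ∈ Ge F2 wgh k) : der F2 u w ∈ Ge F2 wgh (k + s) :=
  dA_mem_of_Ge wgh _ u (Ge F2 wgh) (by rw [Ge_zero]; trivial) (Ge_anti wgh)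
    (fun _ _ _ _ => mul_mem_Ge wgh) s (fun i => Hom_le_Ge wgh _ (ι_mem_Hom wgh i)) hu hw
theorem der_adp_a3 (u : Fin 3 → T3 F2) (h : u 0 = 0) (w : T3 F2) (i : ℕ) :
    der F2 u (adp (a3 F2) i w) = adp (a3 F2) i (der F2 u w) := by
  induction i with
  | zero => rfl
  | succ i ih =>
    have : der F2 u (a3 F2) = 0 := (der_ι _ 0).trans h
    rw [adp_succ, der_lie, this, ih, adp_succ]; simp [Ring.lie_def]

/-- induction: `zeta0` preserves `Ge wgh 2`, `delta` raises `Ge wgh` by one (`dA_mem_of_Ge`),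
`zeta0 (adp z i h) = zeta1 (adp z i g) = adp z (i+1) h`. -/
theorem uu_sub_mem (i : ℕ) : uu i - (i + 1) • adp (a3 F2) i (e3 F2) ∈ Ge F2 wgh 2 := by
  induction i with
  | zero => simp [uu]
  | succ i ih =>
    have h0 : zeta0 (adp (a3 F2) i (e3 F2)) = adp (a3 F2) (i + 1) (e3 F2) := by
      rw [zeta0, der_adp_a3 _ rfl, adp_succ']; congr 1; exact der_ι _ 2
    have h1 : zeta1 (adp (a3 F2) i (b3 F2)) = adp (a3 F2) (i + 1) (e3 F2) := by
      rw [zeta1, der_adp_a3 _ rfl, adp_succ']; congr 1; exact der_ι _ 1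
    have h2 : zeta0 (uu i - (i + 1) • adp (a3 F2) i (e3 F2)) ∈ Ge F2 wgh 2 := by
      refine der_mem_Ge _ 0 (fun j => ?_) ih
      fin_cases j
      · exact zero_mem _
      · exact Hom_le_Ge wgh _ (adp_mem_Hom b3_mem 1)
      · exact Hom_le_Ge wgh _ (adp_mem_Hom e3_mem 1)
    have h3 : delta (adp (a3 F2) i (b3 F2)) ∈ Ge F2 wgh 2 := by
      refine der_mem_Ge _ 1 (fun j => ?_) (Hom_le_Ge wgh _ (adp_mem_Hom b3_mem i))
      fin_cases j
      · exact Hom_le_Ge wgh _ e3_mem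
      · exact zero_mem _
      · exact zero_mem _
    convert add_mem h2 h3 using 1
    rw [uu, map_sub, map_nsmul, h0, LinearMap.add_apply, h1, succ_nsmul _ (i + 1)]
    abel

/-- `dA g uu P = dA g u0 P_d + (dA g u0 (P - P_d) + dA g (uu - u0) P)`; the first term is in
`Hom wgh d` (`dA_mem_of_Hom`, `s = 0`), the bracket in `Ge wgh (d+1)` (`dA_mem_of_Ge`). -/
theorem dA_low {d : ℕ} {P : TY} (hP : P ∈ Ge F2 w1 d)
    (h : dA F2 (fun i => adp (a3 F2) i (b3 F2)) uu P = 0) :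
    dA F2 (fun i => adp (a3 F2) i (b3 F2)) (fun i => (i + 1) • adp (a3 F2) i (e3 F2))
      (cmp F2 w1 d P) = 0 := by
  set g := fun i => adp (a3 F2) i (b3 F2)
  set u0 := fun i => (i + 1) • adp (a3 F2) i (e3 F2)
  have hg : ∀ i, g i ∈ Hom F2 wgh 1 := fun i => adp_mem_Hom b3_mem i
  have hu : ∀ i, u0 i ∈ Hom F2 wgh 1 := fun i => nsmul_mem (adp_mem_Hom e3_mem i) _
  have one : (1 : T3 F2) ∈ Ge F2 wgh 0 := by rw [Ge_zero]; trivial
  have h1 : dA F2 g u0 (cmp F2 w1 d P) ∈ Hom F2 wgh (d + 0) :=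
    dA_mem_of_Hom w1 g u0 (Hom F2 wgh) (one_mem_Hom wgh) (fun _ _ _ _ => mul_mem_Hom wgh) 0 hg hu
      (cmp_mem_Hom w1 d P)
  have h2 : dA F2 g u0 (P - cmp F2 w1 d P) ∈ Ge F2 wgh (d + 1 + 0) :=
    dA_mem_of_Ge w1 g u0 (Ge F2 wgh) one (Ge_anti wgh) (fun _ _ _ _ => mul_mem_Ge wgh) 0
      (fun i => Hom_le_Ge wgh _ (hg i)) (fun i => Hom_le_Ge wgh _ (hu i)) (sub_cmp_mem_Ge w1 hP)
  have h3 : dA F2 g (uu - u0) P ∈ Ge F2 wgh (d + 1) :=
    dA_mem_of_Ge w1 g (uu - u0) (Ge F2 wgh) one (Ge_anti wgh) (fun _ _ _ _ => mul_mem_Ge wgh) 1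
      (fun i => Hom_le_Ge wgh _ (hg i)) uu_sub_mem hP
  have h4 : dA F2 g uu P = dA F2 g u0 P + dA F2 g (uu - u0) P := by
    rw [← dA_add, add_sub_cancel]
  refine eq_zero_of_Hom_of_Ge wgh h1 ?_
  have : dA F2 g u0 (cmp F2 w1 d P) = -(dA F2 g u0 (P - cmp F2 w1 d P) + dA F2 g (uu - u0) P) := by
    rw [map_sub, eq_neg_iff_add_eq_zero, ← h, h4]; abel
  rw [this]
  exact neg_mem (add_mem h2 h3)

/-- apply the algebra map `T3 → End TV`, `z ↦ shV`, `g ↦ Lm Y0`, `h ↦ Lm X0` (`map_dA`, `map_adp`,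
`adp_shV`), and evaluate at 1. -/
theorem dA_TV {P : TY}
    (h : dA F2 (fun i => adp (a3 F2) i (b3 F2)) (fun i => (i + 1) • adp (a3 F2) i (e3 F2)) P = 0) :
    dA F2 (fun i => (ι F2 (true, i) : TV)) (fun i => (i + 1) • ι F2 (false, i)) P = 0 := by
  set φ : T3 F2 →ₐ[F2] Module.End F2 TV :=
    FreeAlgebra.lift F2 ![shV, Lm F2 (ι F2 (true, 0)), Lm F2 (ι F2 (false, 0))] with hφ
  have ha : φ (a3 F2) = shV := by simp [hφ, a3]
  have hb : φ (b3 F2) = Lm F2 (ι F2 (true, 0)) := by simp [hφ, b3]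
  have he : φ (e3 F2) = Lm F2 (ι F2 (false, 0)) := by simp [hφ, e3]
  have h1 := congrArg φ h
  rw [map_dA, map_zero] at h1
  simp only [map_nsmul, map_adp, ha, hb, he, adp_shV] at h1
  have h2 := map_dA (Algebra.lmul F2 TV) (fun i => (ι F2 (true, i) : TV))
    (fun i => (i + 1) • ι F2 (false, i)) P
  simp only [map_nsmul] at h2
  have h3 := congrArg (fun t : Module.End F2 TV => t 1) (h2.trans h1)
  simpa using h3

/-- the algebra map `m : TV → Matrix (Fin 2) (Fin 2) TY`, `Y_i ↦ !![piOdd Y_i, 0; 0, Y_i]`,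
`X_i ↦ !![0, Y_i; 0, 0]` sends `lift Y w` to `!![piOdd w, 0; 0, w]` and `dA … w` to
`!![0, w - piOdd w; 0, 0]` (induction on `w`). -/
theorem piOdd_eq_of_dA {P : TY}
    (h : dA F2 (fun i => (ι F2 (true, i) : TV)) (fun i => (i + 1) • ι F2 (false, i)) P = 0) :
    piOdd P = P := by
  set m : TV →ₐ[F2] Matrix (Fin 2) (Fin 2) TY := FreeAlgebra.lift F2
    (fun p => if p.1 then !![piOdd (ι F2 p.2), 0; 0, ι F2 p.2] else !![0, ι F2 p.2; 0, 0]) with hm
  have k1 : ∀ w : TY, m (FreeAlgebra.lift F2 (fun i => (ι F2 (true, i) : TV)) w) =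
      !![piOdd w, 0; 0, w] := by
    intro w
    induction w using FreeAlgebra.induction with
    | grade0 c =>
      ext i j; fin_cases i <;> fin_cases j <;> simp [Algebra.algebraMap_eq_smul_one]
    | grade1 i => simp [hm]
    | mul v w hv hw => rw [map_mul, map_mul, hv, hw]; simp
    | add v w hv hw => rw [map_add, map_add, hv, hw]; simp
  have k2 : ∀ w : TY, m (dA F2 (fun i => (ι F2 (true, i) : TV))
      (fun i => (i + 1) • ι F2 (false, i)) w) = !![0, w - piOdd w; 0, 0] := by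
    intro w
    induction w using FreeAlgebra.induction with
    | grade0 c =>
      ext i j; fin_cases i <;> fin_cases j <;> simp [Algebra.algebraMap_eq_smul_one]
    | grade1 i =>
      rw [dA_ι, map_nsmul]
      rcases Nat.even_or_odd' i with ⟨k, rfl | rfl⟩
      · have : ¬ Odd (2 * k) := by simp
        rw [succ_nsmul, mul_comm, mul_nsmul, two_nsmul_two, zero_add]
        simp [hm, piOdd, mul_comm k 2, this]
      · have : Odd (2 * k + 1) := by simp
        rw [show 2 * k + 1 + 1 = (k + 1) * 2 by ring, mul_nsmul, two_nsmul_two]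
        ext i j; fin_cases i <;> fin_cases j <;> simp [piOdd, this]
    | mul v w hv hw =>
      rw [dA_mul, map_add, map_mul, map_mul, hv, hw, k1, k1]
      ext i j; fin_cases i <;> fin_cases j <;> simp
      noncomm_ring
    | add v w hv hw =>
      rw [map_add, map_add, hv, hw]
      ext i j; fin_cases i <;> fin_cases j <;> simp
      abel
  have h1 := k2 P
  rw [h, map_zero] at h1
  have h2 := congrFun (congrFun h1 0) 1
  simp at h2
  exact (sub_eq_zero.1 h2.symm).symm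

end Crest.Agent.R10
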