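import Crest.Agent.R10.U.InstA
import Crest.Agent.R10.U.InstBC
import Crest.Agent.R10.U.Low

/-! # Row 10, block U: the upper bound modulo 2. -/

noncomputable section
namespace Crest.Agent.R10
open FreeAlgebra (ι)

theorem PP_mem {N : ℕ} {f : T F2} (hf : f ∈ L F2 N) (hN : 3 ≤ N) :
    PP f ∈ LS F2 (ι F2) wY N := by
  obtain ⟨G, hG, rfl⟩ := exists_jV hf hN
  rw [PP_jV]; exact pY_mem_LS hG

theorem PP_inj {N : ℕ} {f : T F2} (hf : GrtR F2 N f) (hN : 3 ≤ N) (h : PP f = 0) : f = 0 := by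
  obtain ⟨G, hG, rfl⟩ := exists_jV hf.lie hN
  rw [PP_jV] at h
  have h1 := eq_inX_pX hf (by omega) h
  rw [pX_eq_zero hf hG hN, map_zero] at h1
  rw [h1, map_zero]

theorem PP_low {N d : ℕ} {f : T F2} (hf : GrtR F2 N f) (hN : 3 ≤ N) (h : PP f ∈ Ge F2 w1 d) :
    piOdd (cmp F2 w1 d (PP f)) = cmp F2 w1 d (PP f) := by
  obtain ⟨G, hG, rfl⟩ := exists_jV hf.lie hN
  rw [PP_jV] at h ⊢
  exact piOdd_eq_of_dA (dA_TV (dA_low h (dA_uu_eq_zero hf hG (by omega))))

theorem PP_phi (σ : ℕ → T F2) (hσ : ∀ k, GrtR F2 (2 * k + 3) (σ k)) (ω : FreeAlgebra F2 ℕ) :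
    PP (phi F2 σ ω) = FreeAlgebra.lift F2 (fun k => PP (σ k)) ω := by
  have key : ∀ G' : TV, ∃ G'', FreeAlgebra.lift F2 (fun k => Op F2 (σ k)) ω (jV G') = jV G'' ∧
      pY G'' = FreeAlgebra.lift F2 (fun k => PP (σ k)) ω * pY G' := by
    induction ω using FreeAlgebra.induction with
    | grade0 c =>
      intro G'
      exact ⟨c • G', by simp [Algebra.algebraMap_eq_smul_one], by
        simp [Algebra.algebraMap_eq_smul_one]⟩
    | grade1 k =>
      intro G'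
      obtain ⟨G, hG, e⟩ := exists_jV (hσ k).lie (by omega)
      have h := hσ k
      rw [e] at h
      obtain ⟨G'', h1, h2⟩ := Op_jV h.spc (pX_eq_zero h hG (by omega)) G'
      exact ⟨G'', by simp [e, h1], by simp [e, h2, PP_jV]⟩
    | mul v w hv hw =>
      intro G'
      obtain ⟨G1, h1, h2⟩ := hw G'
      obtain ⟨G2, h3, h4⟩ := hv G1
      exact ⟨G2, by simp [h1, h3], by simp [h4, h2, mul_assoc]⟩
    | add v w hv hw =>
      intro G'
      obtain ⟨G1, h1, h2⟩ := hw G'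
      obtain ⟨G2, h3, h4⟩ := hv G'
      exact ⟨G2 + G1, by simp [h1, h3], by simp [h4, h2, add_mul]⟩
  obtain ⟨G'', h1, h2⟩ := key 1
  simp only [map_one, mul_one] at h1 h2
  simp only [phi, LinearMap.comp_apply, AlgHom.toLinearMap_apply, LinearMap.applyₗ_apply_apply]
  rw [h1, PP_jV, h2]

end Crest.Agent.R10
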