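import Crest.Agent.R10.U.Defs

/-! # Row 10, block U: the two cells, simplified by central shifts (characteristic 2).
With `La, Lb, Le` the left multiplications, `Z = La+Lb+Le+tAB+tAw+tBw` is central (`br_rep.central`).
Use `ev_shift`, `ev_Lm`, `asy_ev`, `ev_apply_eq_zero`, `sub_eq_two`, `add_self_two`. -/

noncomputable section
namespace Crest.Agent.R10
open FreeAlgebra (ι)

/-- `z = a+b+e`. -/
def z3 : T3 F2 := a3 F2 + b3 F2 + e3 F2

section shifts
variable {A : Type} [Ring A] [Algebra F2 A] {N : ℕ} {ψ : T F2} {a b c d e g : A}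

theorem comm_of_add_right {A : Type} [Ring A] {p q : A} (h : Commute p (q + p)) : Commute p q := by
  simpa using h.sub_right (Commute.refl p)

theorem cs1 (hl : ψ ∈ L F2 N) (hN : 2 ≤ N) (h : Br a b c d e g) :
    ev F2 a (d + e) ψ = ev F2 a (a + b + c) ψ := by
  obtain ⟨z1, z2, z3, z4, z5, z6⟩ := h.central
  have hg : Commute (b + c) g := (comm_of_add_right h.g1).symm
  have := ev_shift hl hN (a := a) (b := a + b + c) (s := 0) (t := (a + b + c + d + e + g) + g)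
    (Commute.zero_right _) (z1.add_right h.ag) (Commute.zero_right _)
    (((z1.add_left z2).add_left z3).add_right (by rw [add_assoc]; exact h.ag.add_left hg))
    (Commute.zero_left _)
  rw [← this, add_zero]; congr 2
  symm; apply eq_of_sub_eq_two (a + b + c + g); abel

theorem cs2 (hl : ψ ∈ L F2 N) (hN : 2 ≤ N) (h : Br a b c d e g) :
    ev F2 (b + d) g ψ = ev F2 (e + g + c) g ψ := by
  obtain ⟨z1, z2, z3, z4, z5, z6⟩ := h.central
  have ha : Commute a (b + d) := comm_of_add_right (by convert h.a3 using 1; abel)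
  have := ev_shift hl hN (a := b + d) (b := g) (s := a + (a + b + c + d + e + g)) (t := 0)
    (ha.symm.add_right (z2.add_left z4)) (Commute.zero_right _) (h.ag.symm.add_right z6)
    (Commute.zero_right _) (Commute.zero_right _)
  rw [← this, add_zero]; congr 2
  apply eq_of_sub_eq_two (a + b + d); abel

theorem cs2' (hl : ψ ∈ L F2 N) (hN : 2 ≤ N) (h : Br a b c d e g) :
    ev F2 g (b + d) ψ = ev F2 (b + c + (d + e)) (b + d) ψ := by
  obtain ⟨z1, z2, z3, z4, z5, z6⟩ := h.central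
  have ha : Commute a (b + d) := comm_of_add_right (by convert h.a3 using 1; abel)
  have := ev_shift hl hN (a := g) (b := b + d) (s := a + (a + b + c + d + e + g)) (t := 0)
    (h.ag.symm.add_right z6) (Commute.zero_right _) (ha.symm.add_right (z2.add_left z4))
    (Commute.zero_right _) (Commute.zero_right _)
  rw [← this, add_zero]; congr 2
  apply eq_of_sub_eq_two (a + g); abel

theorem cs4 (hl : ψ ∈ L F2 N) (hN : 2 ≤ N) (h : Br a b c d e g) :
    ev F2 (a + b) (e + g) ψ = ev F2 (a + b) (a + b + c) ψ := by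
  obtain ⟨z1, z2, z3, z4, z5, z6⟩ := h.central
  have hd : Commute (a + b) d := (comm_of_add_right h.d3).symm
  have := ev_shift hl hN (a := a + b) (b := a + b + c) (s := 0) (t := (a + b + c + d + e + g) + d)
    (Commute.zero_right _) ((z1.add_left z2).add_right hd) (Commute.zero_right _)
    (((z1.add_left z2).add_left z3).add_right (hd.add_left h.cd)) (Commute.zero_left _)
  rw [← this, add_zero]; congr 2
  symm; apply eq_of_sub_eq_two (a + b + c + d); abel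

theorem cs5 (hl : ψ ∈ L F2 N) (hN : 2 ≤ N) (h : Br a b c d e g) :
    ev F2 a d ψ = ev F2 a (a + b) ψ := by
  have := ev_shift hl hN (a := a) (b := a + b) (s := 0) (t := a + b + d)
    (Commute.zero_right _) h.a3 (Commute.zero_right _) (h.a3.add_left h.b3) (Commute.zero_left _)
  rw [← this, add_zero]; congr 2
  symm; apply eq_of_sub_eq_two (a + b); abel

theorem ev_swap2 (h : asy F2 ψ (xx F2) (yy F2) = 0) (p q : A) : ev F2 p q ψ = ev F2 q p ψ := by
  have := asy_ev h p q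
  rw [asy] at this
  rw [← sub_eq_zero, sub_eq_two, this]
end shifts

theorem Lm_add_T3 (s t : T3 F2) : Lm F2 s + Lm F2 t = Lm F2 (s + t) :=
  (map_add (Algebra.lmul F2 _) s t).symm
theorem z3_add_e3 : z3 + e3 F2 = a3 F2 + b3 F2 := by
  rw [z3, add_assoc, add_self_two, add_zero]

/-- terms of `cell3`: `ψ(La, tAB+tAw) = ψ(La, Lz)` (shift by `Z+tBw`);
`ψ(Lb+tAB, tBw) = ψ(tAw+tBw+Le, tBw)` (shift by `La + Z`); `ψ(tAB,tBw) 1 = 0`;
`ψ(La+Lb, tAw+tBw) = ψ(L(z+e), Lz)` (shift by `Z+tAB`); `ψ(La,tAB) = ψ(La, L(a+b))`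
(shift by `La+Lb+tAB`); `a + b = z + e`. -/
theorem cell3_simp {N : ℕ} {ψ : T F2} (h : GrtR F2 N ψ) (hN : 2 ≤ N) :
    ev F2 z3 (a3 F2) ψ + ev F2 (tAw F2 + tBw F2 + Lm F2 (e3 F2)) (tBw F2) ψ 1 +
      ev F2 (z3 + e3 F2) z3 ψ + ev F2 (z3 + e3 F2) (a3 F2) ψ = 0 := by
  have h0 := h.cell3
  have B := br_rep (K := F2)
  rw [pent, cs1 h.lie hN B, cs2 h.lie hN B, cs4 h.lie hN B, cs5 h.lie hN B] at h0
  have h3 : ev F2 (tAB F2) (tBw F2) ψ 1 = 0 :=
    ev_apply_eq_zero h.lie _ _ _ (der_one _) (der_one _)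
  simp only [Lm_add_T3, ev_Lm, sub_eq_two, LinearMap.add_apply, Lm_apply, mul_one, h3,
    add_zero] at h0
  rw [z3_add_e3, ev_swap2 h.asy z3, ev_swap2 h.asy (a3 F2 + b3 F2) (a3 F2)]
  exact h0

/-- terms of `cell1`: `ψ(Le, tAw+tBw) = ψ(Le,Lz)` (shift by `Z+tAB`);
`ψ(La+tAw, tAB) = ψ(tAB, La+tAw) = ψ(L(z+e)+tAw+tBw, La+tAw)` (shift by `Le+Z`);
`ψ(tAw,tAB) 1 = 0`; `ψ(Le+La, tBw+tAB) = ψ(L(a+e), Lz)` (shift by `Z+tAw`);
`ψ(Le,tAw) = ψ(Le, L(a+e))` (shift by `La+Le+tAw`). -/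
theorem cell1_simp {N : ℕ} {ψ : T F2} (h : GrtR F2 N ψ) (hN : 2 ≤ N) :
    ev F2 (e3 F2) z3 ψ +
      ev F2 (Lm F2 (z3 + e3 F2) + (tAw F2 + tBw F2)) (Lm F2 (a3 F2) + tAw F2) ψ 1 +
      ev F2 z3 (a3 F2 + e3 F2) ψ + ev F2 (e3 F2) (a3 F2 + e3 F2) ψ = 0 := by
  have h0 := h.cell1
  have B := (br_rep (K := F2)).s23.s12
  rw [pent, cs1 h.lie hN B, ev_swap2 h.asy _ (tAB F2), cs2' h.lie hN B, cs4 h.lie hN B,
    cs5 h.lie hN B] at h0
  have h3 : ev F2 (tAw F2) (tAB F2) ψ 1 = 0 :=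
    ev_apply_eq_zero h.lie _ _ _ (der_one _) (der_one _)
  simp only [Lm_add_T3, ev_Lm, sub_eq_two, LinearMap.add_apply, Lm_apply, mul_one, h3,
    add_zero] at h0
  have e1 : e3 F2 + a3 F2 + b3 F2 = z3 := by rw [z3]; abel
  rw [e1, add_comm (e3 F2) (a3 F2)] at h0
  rw [z3_add_e3, ev_swap2 h.asy z3]
  exact h0

end Crest.Agent.R10
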