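import Crest.Agent.R10.Rep

/-! # Row 10, block U (characteristic 2): definitions and elementary API. -/

noncomputable section
namespace Crest.Agent.R10
open FreeAlgebra (ι)

/-- letters `X_i = (false,i)`, `Y_i = (true,i)`, of weight `i+2`. -/
abbrev TV : Type := FreeAlgebra F2 (Bool × ℕ)
abbrev wV : Bool × ℕ → ℕ := fun p => p.2 + 2

section
variable {A : Type} [Ring A] [Algebra F2 A] {B : Type} [Ring B] [Algebra F2 B]

/-- `X_i ↦ ad_z^i X`, `Y_i ↦ ad_z^i Y`. -/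
def evV (z X Y : A) : TV →ₐ[F2] A :=
  FreeAlgebra.lift F2 (fun p => adp z p.2 (if p.1 then Y else X))
def evY (z Y : A) : TY →ₐ[F2] A := FreeAlgebra.lift F2 (fun i => adp z i Y)
def pY : TV →ₐ[F2] TY := FreeAlgebra.lift F2 (fun p => if p.1 then ι F2 p.2 else 0)
def pX : TV →ₐ[F2] TY := FreeAlgebra.lift F2 (fun p => if p.1 then 0 else ι F2 p.2)
def inX : TY →ₐ[F2] TV := FreeAlgebra.lift F2 (fun i => ι F2 (false, i))
def swV : TV →ₐ[F2] TV := FreeAlgebra.lift F2 (fun p => ι F2 (!p.1, p.2))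
def shV : Module.End F2 TV := der F2 (fun p => ι F2 (p.1, p.2 + 1))
/-- `z = x`, `X = y²`, `Y = (x+y)²`. -/
def jV : TV →ₐ[F2] T F2 :=
  evV (xx F2) (yy F2 * yy F2) ((xx F2 + yy F2) * (xx F2 + yy F2))

theorem add_self_two {M : Type} [AddCommGroup M] [Module F2 M] (a : M) : a + a = 0 := by
  rw [← two_smul F2 a, show (2 : F2) = 0 from rfl, zero_smul]
theorem neg_eq_two {M : Type} [AddCommGroup M] [Module F2 M] (a : M) : -a = a :=
  neg_eq_of_add_eq_zero_left (add_self_two a)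
theorem sub_eq_two {M : Type} [AddCommGroup M] [Module F2 M] (a b : M) : a - b = a + b := by
  rw [sub_eq_add_neg, neg_eq_two]
theorem two_nsmul_two {M : Type} [AddCommGroup M] [Module F2 M] (a : M) : 2 • a = 0 := by
  rw [two_nsmul, add_self_two]
theorem two_zsmul_two {M : Type} [AddCommGroup M] [Module F2 M] (a : M) : (2 : ℤ) • a = 0 := by
  rw [two_zsmul, add_self_two]
/-- to prove `a = b` in characteristic two give `c` with `a - b = c + c` (then `noncomm_ring`). -/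
theorem eq_of_sub_eq_two {M : Type} [AddCommGroup M] [Module F2 M] {a b : M} (c : M)
    (h : a - b = c + c) : a = b := by
  rw [add_self_two] at h; exact sub_eq_zero.1 h

@[simp] theorem evV_ι (z X Y : A) (p : Bool × ℕ) :
    evV z X Y (ι F2 p) = adp z p.2 (if p.1 then Y else X) := by simp [evV]
@[simp] theorem evY_ι (z Y : A) (i : ℕ) : evY z Y (ι F2 i) = adp z i Y := by simp [evY]

theorem map_evV (φ : A →ₐ[F2] B) (z X Y : A) (G : TV) :
    φ (evV z X Y G) = evV (φ z) (φ X) (φ Y) G := by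
  rw [evV, map_lift, evV]; congr 2; funext p; rw [map_adp]; cases p.1 <;> rfl
theorem ev_jV (p q : A) (G : TV) : ev F2 p q (jV G) = evV p (q * q) ((p + q) * (p + q)) G := by
  rw [jV, map_evV]; simp
theorem evV_zero_left (z Y : A) (G : TV) : evV z 0 Y G = evY z Y (pY G) := by
  rw [pY, map_lift, evV]; congr 2; funext p; cases h : p.1 <;> simp
theorem evV_zero_right (z X : A) (G : TV) : evV z X 0 G = evY z X (pX G) := by
  rw [pX, map_lift, evV]; congr 2; funext p; cases h : p.1 <;> simp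
theorem evV_swV (z X Y : A) (G : TV) : evV z X Y (swV G) = evV z Y X G := by
  rw [swV, map_lift]; conv_rhs => rw [evV]
  congr 2; funext p; cases h : p.1 <;> simp
theorem pY_swV (G : TV) : pY (swV G) = pX G := by
  rw [swV, map_lift, pX]; congr 2; funext p; cases h : p.1 <;> simp [pY]

theorem intertwine_evV {M M' : Type} [AddCommGroup M] [Module F2 M] [AddCommGroup M']
    [Module F2 M'] (φ : M →ₗ[F2] M') (p q r : Module.End F2 M) (p' q' r' : Module.End F2 M')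
    (hp : ∀ m, φ (p m) = p' (φ m)) (hq : ∀ m, φ (q m) = q' (φ m)) (hr : ∀ m, φ (r m) = r' (φ m))
    (G : TV) (m : M) : φ (evV p q r G m) = evV p' q' r' G (φ m) := by
  apply intertwine_lift
  rintro ⟨s, i⟩ m
  cases s
  · exact intertwine_adp φ p q p' q' hp hq i m
  · exact intertwine_adp φ p r p' r' hp hr i m

theorem adp_shY (i : ℕ) : adp shY i (Lm F2 (ι F2 0)) = Lm F2 (ι F2 i) := by
  induction i with
  | zero => rfl
  | succ i ih => rw [adp_succ, ih, shY, lie_der_Lm, der_ι]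
theorem adp_shV (s : Bool) (i : ℕ) : adp shV i (Lm F2 (ι F2 (s, 0))) = Lm F2 (ι F2 (s, i)) := by
  induction i with
  | zero => rfl
  | succ i ih => rw [adp_succ, ih, shV, lie_der_Lm, der_ι]
theorem evY_shY (P : TY) : evY shY (Lm F2 (ι F2 0)) P = Lm F2 P := by
  rw [evY]; simp only [adp_shY]
  rw [← map_lift (Algebra.lmul F2 TY), lift_self]
theorem evV_shV (G : TV) :
    evV shV (Lm F2 (ι F2 (false, 0))) (Lm F2 (ι F2 (true, 0))) G = Lm F2 G := by
  have : (fun p : Bool × ℕ => adp shV p.2 (if p.1 then Lm F2 (ι F2 (true, 0)) else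
      Lm F2 (ι F2 (false, 0)))) = fun p => Lm F2 (ι F2 p) := by
    funext ⟨s, i⟩; cases s <;> simp [adp_shV]
  rw [evV, this, ← map_lift (Algebra.lmul F2 TV), lift_self]
theorem evY_shV (P : TY) : evY shV (Lm F2 (ι F2 (false, 0))) P = Lm F2 (inX P) := by
  rw [evY]; simp only [adp_shV]
  rw [← map_lift (Algebra.lmul F2 TV), inX]

/-- in characteristic two the square of a derivation is a derivation. -/
theorem der_sq {I : Type} (u : I → FreeAlgebra F2 I) :
    der F2 u * der F2 u = der F2 (fun i => der F2 u (u i)) := by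
  have := eq_der (der F2 u * der F2 u) (fun a b => by
    simp only [Module.End.mul_apply, der_mul, map_add]
    apply eq_of_sub_eq_two (der F2 u a * der F2 u b); abel)
  rw [this]; simp
end

/-- read-off data: a module with operators satisfying the relations of the fibre representation
restricted to `z = a+b+e, X = a², e, f = [a,e]` (and `Y = b² ↦ 0`). -/
structure RO (N : Type) [AddCommGroup N] [Module F2 N] where
  (z X e f ζ α β : Module.End F2 N)
  n0 : N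
  ζz : ⁅ζ, z⁆ = 0
  ζX : ⁅ζ, X⁆ = ⁅X, e⁆
  ζe : ⁅ζ, e⁆ = ⁅z, e⁆
  ζf : ⁅ζ, f⁆ = ⁅z, f⁆ + ⁅X, e⁆ + ⁅(z + e) * (z + e), e⁆
  αz : ⁅α, z⁆ = 0
  αX : ⁅α, X⁆ = ⁅X, f⁆ + ⁅⁅X, e⁆, e⁆
  αe : ⁅α, e⁆ = ⁅X, e⁆ + ⁅f, e⁆
  αf : ⁅α, f⁆ = ⁅X, f⁆ + ⁅⁅f, e⁆, e⁆
  βz : ⁅β, z⁆ = 0
  βX : ⁅β, X⁆ = 0
  βe : ⁅β, e⁆ = ⁅f + ⁅z, e⁆, e⁆
  βf : ⁅β, f⁆ = ⁅z + e, ⁅f + ⁅z, e⁆, e⁆⁆
  ζ0 : ζ n0 = 0
  α0 : α n0 = 0
  β0 : β n0 = 0

namespace RO
variable {N : Type} [AddCommGroup N] [Module F2 N] (R : RO N)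
def mA : Module.End F2 (N × N) := mat 0 R.X 1 0
def mB : Module.End F2 (N × N) := mat (R.z + R.e) ((R.z + R.e) * (R.z + R.e)) 1 (R.z + R.e)
def mE : Module.End F2 (N × N) := mat R.e R.f 0 R.e
def hζ : Module.End F2 (N × N) := mat R.ζ R.f 0 R.ζ
def hα : Module.End F2 (N × N) := mat R.α (⁅R.X, R.e⁆ + ⁅R.f, R.e⁆) 0 R.α
def hβ : Module.End F2 (N × N) := mat R.β 0 0 R.β
def rho : T3 F2 →ₐ[F2] Module.End F2 (N × N) := FreeAlgebra.lift F2 ![R.mA, R.mB, R.mE]
/-- the intertwiner `t ↦ ρ(t) (n0, 0)`. -/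
def rhat : T3 F2 →ₗ[F2] N × N := LinearMap.applyₗ (R.n0, 0) ∘ₗ R.rho.toLinearMap
end RO

/-- operators on `M × M × M`: `(p0,p1,q) ↦ (a p0, b p0 + a p1 + c q, d p0 + a q)`. -/
def tri {M : Type} [AddCommGroup M] [Module F2 M] (a b c d : Module.End F2 M) :
    Module.End F2 (M × M × M) where
  toFun p := (a p.1, b p.1 + a p.2.1 + c p.2.2, d p.1 + a p.2.2)
  map_add' p q := by simp [add_add_add_comm]
  map_smul' r p := by simp

/-! letters `z = a3`, `g = b3`, `h = e3` of a second copy of `T3`. -/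
def zeta0 : Module.End F2 (T3 F2) := der F2 ![0, ⁅a3 F2, b3 F2⁆, ⁅a3 F2, e3 F2⁆]
def zeta1 : Module.End F2 (T3 F2) := der F2 ![0, ⁅a3 F2, e3 F2⁆, 0]
def delta : Module.End F2 (T3 F2) := der F2 ![e3 F2, 0, 0]
def uu : ℕ → T3 F2
  | 0 => e3 F2
  | (i+1) => zeta0 (uu i) + (zeta1 + delta) (adp (a3 F2) i (b3 F2))

end Crest.Agent.R10
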