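import Crest.Agent.R10.U.Defs

/-! # Row 10, block U: `tAw+tBw`, `tAw²`, `tBw²` lift to the 2×2 block representation.
Each identity: `Ring.lie_def`, `mat_mul`, `mat_sub`/`mat_add`, `mat_congr`, and four identities in the
characteristic-2 ring `Module.End F2 N` (rewrite `ζ * X = X * ζ + …` with the fields of `RO`,
then `noncomm_ring` and `two_nsmul_two`/`two_zsmul_two`, or `eq_of_sub_eq_two`). -/

noncomputable section
namespace Crest.Agent.R10
open FreeAlgebra (ι)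
namespace RO
variable {N : Type} [AddCommGroup N] [Module F2 N] (R : RO N)

theorem sw {A : Type} [Ring A] {a b c : A} (h : ⁅a, b⁆ = c) (w : A) :
    a * (b * w) = b * (a * w) + c * w := by
  rw [← h, Ring.lie_def, sub_mul, mul_assoc, mul_assoc]; abel
theorem sw' {A : Type} [Ring A] {a b c : A} (h : ⁅a, b⁆ = c) : a * b = b * a + c := by
  rw [← h, Ring.lie_def]; abel
theorem ev2 {M : Type} [AddCommGroup M] [Module F2 M] (k : ℤ) (a : M) :
    k • a = (k % 2) • a := by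
  conv_lhs => rw [← Int.mul_ediv_add_emod k 2, add_smul, mul_smul, two_zsmul_two, zero_add]
theorem ev3 {M : Type} [AddCommGroup M] [Module F2 M] (k : ℤ) (a : M) (h : k % 2 = 0) :
    k • a = 0 := by
  rw [ev2, h, zero_smul]

/-- characteristic-two normalisation. -/
macro "char2" : tactic => `(tactic| (
  rw [← sub_eq_zero]
  simp only [Ring.lie_def, sub_eq_two, mul_add, add_mul, mul_assoc, mul_one, one_mul, mul_zero,
    zero_mul, add_zero, zero_add]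
  try abel_nf
  try simp (disch := decide) only [ev3, add_zero, zero_add]))

/-- expand a block identity. -/
macro "blocks" : tactic => `(tactic| (
  simp only [mA, mB, mE, hζ, hα, hβ, Ring.lie_def, mat_mul, mat_sub, mat_add]
  first | rw [← mat_zero] | skip
  apply mat_congr))

theorem mA_sq : R.mA * R.mA = mat R.X 0 0 R.X := by
  blocks <;> char2
theorem mB_sq : R.mB * R.mB = 0 := by
  blocks <;> char2
theorem lie_mA_mE : ⁅R.mA, R.mE⁆ = mat R.f ⁅R.X, R.e⁆ 0 R.f := by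
  blocks <;> char2
theorem lie_mB_mE : ⁅R.mB, R.mE⁆ = mat (R.f + ⁅R.z, R.e⁆)
    (⁅R.z + R.e, R.f⁆ + ⁅(R.z + R.e) * (R.z + R.e), R.e⁆) 0 (R.f + ⁅R.z, R.e⁆) := by
  blocks <;> char2
theorem mA_add_mB_add_mE :
    R.mA + R.mB + R.mE = mat R.z (R.X + (R.z + R.e) * (R.z + R.e) + R.f) 0 R.z := by
  blocks <;> char2

theorem hζ_mA : ⁅R.hζ, R.mA⁆ = ⁅R.mA, R.mE⁆ := by
  have h1 := sw' R.ζz; have h2 := sw' R.ζX; have h3 := sw' R.ζe; have h4 := sw' R.ζf
  have k1 := sw R.ζz; have k2 := sw R.ζX; have k3 := sw R.ζe; have k4 := sw R.ζf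
  blocks <;> (try simp only [mul_add, add_mul, mul_sub, sub_mul, mul_assoc, h1, h2, h3, h4, k1,
    k2, k3, k4]) <;> char2
theorem hζ_mB : ⁅R.hζ, R.mB⁆ = ⁅R.mB, R.mE⁆ := by
  have h1 := sw' R.ζz; have h2 := sw' R.ζX; have h3 := sw' R.ζe; have h4 := sw' R.ζf
  have k1 := sw R.ζz; have k2 := sw R.ζX; have k3 := sw R.ζe; have k4 := sw R.ζf
  blocks <;> (try simp only [mul_add, add_mul, mul_sub, sub_mul, mul_assoc, h1, h2, h3, h4, k1,
    k2, k3, k4]) <;> char2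
theorem hζ_mE : ⁅R.hζ, R.mE⁆ = ⁅R.mE, R.mA⁆ + ⁅R.mE, R.mB⁆ := by
  have h1 := sw' R.ζz; have h2 := sw' R.ζX; have h3 := sw' R.ζe; have h4 := sw' R.ζf
  have k1 := sw R.ζz; have k2 := sw R.ζX; have k3 := sw R.ζe; have k4 := sw R.ζf
  blocks <;> (try simp only [mul_add, add_mul, mul_sub, sub_mul, mul_assoc, h1, h2, h3, h4, k1,
    k2, k3, k4]) <;> char2
theorem hα_mA : ⁅R.hα, R.mA⁆ = ⁅⁅R.mA, R.mE⁆, R.mE⁆ + ⁅R.mA, ⁅R.mE, R.mA⁆⁆ := by
  have h1 := sw' R.αz; have h2 := sw' R.αX; have h3 := sw' R.αe; have h4 := sw' R.αf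
  have k1 := sw R.αz; have k2 := sw R.αX; have k3 := sw R.αe; have k4 := sw R.αf
  blocks <;> (try simp only [mul_add, add_mul, mul_sub, sub_mul, mul_assoc, h1, h2, h3, h4, k1,
    k2, k3, k4]) <;> char2
theorem hα_mB : ⁅R.hα, R.mB⁆ = 0 := by
  have h1 := sw' R.αz; have h2 := sw' R.αX; have h3 := sw' R.αe; have h4 := sw' R.αf
  have k1 := sw R.αz; have k2 := sw R.αX; have k3 := sw R.αe; have k4 := sw R.αf
  blocks <;> (try simp only [mul_add, add_mul, mul_sub, sub_mul, mul_assoc, h1, h2, h3, h4, k1,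
    k2, k3, k4]) <;> char2
theorem hα_mE : ⁅R.hα, R.mE⁆ = ⁅⁅R.mE, R.mA⁆, R.mA⁆ + ⁅R.mE, ⁅R.mA, R.mE⁆⁆ := by
  have h1 := sw' R.αz; have h2 := sw' R.αX; have h3 := sw' R.αe; have h4 := sw' R.αf
  have k1 := sw R.αz; have k2 := sw R.αX; have k3 := sw R.αe; have k4 := sw R.αf
  blocks <;> (try simp only [mul_add, add_mul, mul_sub, sub_mul, mul_assoc, h1, h2, h3, h4, k1,
    k2, k3, k4]) <;> char2
theorem hβ_mA : ⁅R.hβ, R.mA⁆ = 0 := by
  have h1 := sw' R.βz; have h2 := sw' R.βX; have h3 := sw' R.βe; have h4 := sw' R.βf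
  have k1 := sw R.βz; have k2 := sw R.βX; have k3 := sw R.βe; have k4 := sw R.βf
  blocks <;> (try simp only [mul_add, add_mul, mul_sub, sub_mul, mul_assoc, h1, h2, h3, h4, k1,
    k2, k3, k4]) <;> char2
theorem hβ_mB : ⁅R.hβ, R.mB⁆ = ⁅⁅R.mB, R.mE⁆, R.mE⁆ + ⁅R.mB, ⁅R.mE, R.mB⁆⁆ := by
  have h1 := sw' R.βz; have h2 := sw' R.βX; have h3 := sw' R.βe; have h4 := sw' R.βf
  have k1 := sw R.βz; have k2 := sw R.βX; have k3 := sw R.βe; have k4 := sw R.βf
  blocks <;> (try simp only [mul_add, add_mul, mul_sub, sub_mul, mul_assoc, h1, h2, h3, h4, k1,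
    k2, k3, k4]) <;> char2
theorem hβ_mE : ⁅R.hβ, R.mE⁆ = ⁅⁅R.mE, R.mB⁆, R.mB⁆ + ⁅R.mE, ⁅R.mB, R.mE⁆⁆ := by
  have h1 := sw' R.βz; have h2 := sw' R.βX; have h3 := sw' R.βe; have h4 := sw' R.βf
  have k1 := sw R.βz; have k2 := sw R.βX; have k3 := sw R.βe; have k4 := sw R.βf
  blocks <;> (try simp only [mul_add, add_mul, mul_sub, sub_mul, mul_assoc, h1, h2, h3, h4, k1,
    k2, k3, k4]) <;> char2

end RO
end Crest.Agent.R10
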