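import Crest.Agent.R10.U.Read

/-! # Row 10, block U: instance (a), first order in `e`. -/

noncomputable section
namespace Crest.Agent.R10
open FreeAlgebra (ι)

section
variable {M : Type} [AddCommGroup M] [Module F2 M]
@[simp] theorem tri_apply (a b c d : Module.End F2 M) (p0 p1 q : M) :
    tri a b c d (p0, p1, q) = (a p0, b p0 + a p1 + c q, d p0 + a q) := rfl
theorem tri_mul (a b c d a' b' c' d' : Module.End F2 M) :
    tri a b c d * tri a' b' c' d' =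
      tri (a * a') (b * a' + a * b' + c * d') (a * c' + c * a') (d * a' + a * d') := by
  apply LinearMap.ext; rintro ⟨p0, p1, q⟩
  simp only [Module.End.mul_apply, tri_apply, map_add, LinearMap.add_apply, Prod.mk.injEq,
    true_and]
  constructor <;> abel
theorem tri_add (a b c d a' b' c' d' : Module.End F2 M) :
    tri a b c d + tri a' b' c' d' = tri (a + a') (b + b') (c + c') (d + d') := by
  apply LinearMap.ext; rintro ⟨p0, p1, q⟩
  simp only [tri_apply, LinearMap.add_apply, Prod.mk_add_mk, Prod.mk.injEq, true_and]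
  constructor <;> abel
theorem tri_sub (a b c d a' b' c' d' : Module.End F2 M) :
    tri a b c d - tri a' b' c' d' = tri (a - a') (b - b') (c - c') (d - d') := by
  apply LinearMap.ext; rintro ⟨p0, p1, q⟩
  simp only [tri_apply, LinearMap.sub_apply, Prod.mk_sub_mk, Prod.mk.injEq, true_and]
  constructor <;> abel
theorem tri_zero : tri (0 : Module.End F2 M) 0 0 0 = 0 := by
  apply LinearMap.ext; rintro ⟨p0, p1, q⟩; simp
theorem tri_one : tri (1 : Module.End F2 M) 0 0 0 = 1 := by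
  apply LinearMap.ext; rintro ⟨p0, p1, q⟩; simp
theorem tri_lie (a b c d a' b' c' d' : Module.End F2 M) :
    ⁅tri a b c d, tri a' b' c' d'⁆ =
      tri ⁅a, a'⁆ (⁅b, a'⁆ + ⁅a, b'⁆ + c * d' - c' * d) (⁅a, c'⁆ + ⁅c, a'⁆) (⁅d, a'⁆ + ⁅a, d'⁆) := by
  simp only [Ring.lie_def, tri_mul, tri_sub]; congr 1 <;> abel
theorem tri_pow (a b c d : Module.End F2 M) (k : ℕ) :
    ∃ a' b' c' d', tri a b c d ^ k = tri a' b' c' d' := by
  induction k with
  | zero => exact ⟨_, _, _, _, tri_one.symm⟩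
  | succ k ih => obtain ⟨a', b', c', d', h⟩ := ih; exact ⟨_, _, _, _, by rw [pow_succ, h, tri_mul]⟩
end

section
variable {A : Type} [Ring A]
theorem lie0r (a : A) : ⁅a, (0 : A)⁆ = 0 := by simp [Ring.lie_def]
theorem lie0l (a : A) : ⁅(0 : A), a⁆ = 0 := by simp [Ring.lie_def]
theorem lie1r (a : A) : ⁅a, (1 : A)⁆ = 0 := by simp [Ring.lie_def]
theorem lie1l (a : A) : ⁅(1 : A), a⁆ = 0 := by simp [Ring.lie_def]
theorem lie_comm_two [Algebra F2 A] (a b : A) : ⁅a, b⁆ = ⁅b, a⁆ := by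
  simp only [Ring.lie_def, sub_eq_two]; abel
end

theorem Lm_zero3 : Lm F2 (0 : T3 F2) = 0 := map_zero (Algebra.lmul F2 _)
theorem lie_Lm3 (s t : T3 F2) : ⁅Lm F2 s, Lm F2 t⁆ = Lm F2 ⁅s, t⁆ :=
  (map_lie' (Algebra.lmul F2 _) s t).symm
theorem lie_R_Lm (s t : T3 F2) : ⁅LinearMap.mulRight F2 s, Lm F2 t⁆ = 0 := by
  ext1 w; simp [Ring.lie_def, mul_assoc]
theorem lie_zeta0_Lm (t : T3 F2) : ⁅zeta0, Lm F2 t⁆ = Lm F2 (zeta0 t) := lie_der_Lm _ _
theorem lie_zeta1_Lm (t : T3 F2) : ⁅zeta1, Lm F2 t⁆ = Lm F2 (zeta1 t) := lie_der_Lm _ _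
theorem lie_delta_Lm (t : T3 F2) : ⁅delta, Lm F2 t⁆ = Lm F2 (delta t) := lie_der_Lm _ _
theorem lie_Lm_delta (t : T3 F2) : ⁅Lm F2 t, delta⁆ = Lm F2 (delta t) := by
  rw [lie_comm_two, lie_delta_Lm]
theorem zeta0_a : zeta0 (a3 F2) = 0 := der_ι _ 0
theorem zeta0_b : zeta0 (b3 F2) = ⁅a3 F2, b3 F2⁆ := der_ι _ 1
theorem zeta0_e : zeta0 (e3 F2) = ⁅a3 F2, e3 F2⁆ := der_ι _ 2
theorem zeta1_a : zeta1 (a3 F2) = 0 := der_ι _ 0
theorem zeta1_b : zeta1 (b3 F2) = ⁅a3 F2, e3 F2⁆ := der_ι _ 1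
theorem delta_a : delta (a3 F2) = e3 F2 := der_ι _ 0
theorem delta_b : delta (b3 F2) = 0 := der_ι _ 1
theorem delta_e : delta (e3 F2) = 0 := der_ι _ 2
theorem delta_lie (v w : T3 F2) : delta ⁅v, w⁆ = ⁅delta v, w⁆ + ⁅v, delta w⁆ := der_lie _ _ _
theorem zeta0_lie (v w : T3 F2) : zeta0 ⁅v, w⁆ = ⁅zeta0 v, w⁆ + ⁅v, zeta0 w⁆ := der_lie _ _ _

/-- `[ζ0,δ] = ad h`. -/
theorem lie_zeta0_delta :
    ⁅zeta0, delta⁆ = Lm F2 (e3 F2) + LinearMap.mulRight F2 (e3 F2) := by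
  have h := eq_der (Lm F2 (e3 F2) + LinearMap.mulRight F2 (e3 F2)) (fun v w => by
    simp only [LinearMap.add_apply, Lm_apply, LinearMap.mulRight_apply, mul_add, add_mul,
      mul_assoc]
    symm; apply eq_of_sub_eq_two (v * (e3 F2 * w)); abel)
  rw [h, zeta0, delta, lie_der_der, ← zeta0, ← delta]
  congr 1; funext i
  simp only [LinearMap.add_apply, Lm_apply, LinearMap.mulRight_apply]
  fin_cases i
  · change zeta0 (e3 F2) - delta 0 = e3 F2 * a3 F2 + a3 F2 * e3 F2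
    rw [zeta0_e, map_zero, sub_zero, Ring.lie_def, sub_eq_two, add_comm]
  · change zeta0 0 - delta ⁅a3 F2, b3 F2⁆ = e3 F2 * b3 F2 + b3 F2 * e3 F2
    rw [delta_lie, delta_a, delta_b, map_zero, lie0r, add_zero, sub_eq_two, zero_add, Ring.lie_def,
      sub_eq_two]
  · change zeta0 0 - delta ⁅a3 F2, e3 F2⁆ = e3 F2 * e3 F2 + e3 F2 * e3 F2
    rw [delta_lie, delta_a, delta_e, map_zero, lie0r, add_self_two]; simp [Ring.lie_def]

theorem lie_z_e : ⁅tri (Lm F2 (a3 F2)) 0 0 0, tri 0 delta 0 1⁆ = tri 0 (Lm F2 (e3 F2)) 0 0 := by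
  simp only [tri_lie, lie0r, lie0l, lie1r, lie_Lm_delta, delta_a, mul_zero, zero_mul, add_zero,
    zero_add, sub_zero]
theorem lie_f_e : ⁅tri (Lm F2 (b3 F2)) (Lm F2 (e3 F2)) 0 0, tri 0 delta 0 1⁆ = 0 := by
  simp only [tri_lie, lie0r, lie0l, lie1r, lie_Lm_delta, delta_b, mul_zero, zero_mul, add_zero,
    zero_add, sub_zero, Lm_zero3, tri_zero]
theorem f_add_lie : tri (Lm F2 (b3 F2)) (Lm F2 (e3 F2)) 0 0 +
    ⁅tri (Lm F2 (a3 F2)) 0 0 0, tri 0 delta 0 1⁆ = tri (Lm F2 (b3 F2)) 0 0 0 := by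
  simp only [lie_z_e, tri_add, add_zero, add_self_two]
theorem lie_g_e : ⁅tri (Lm F2 (b3 F2)) 0 0 0, tri 0 delta 0 1⁆ = 0 := by
  simp only [tri_lie, lie0r, lie0l, lie1r, lie_Lm_delta, delta_b, mul_zero, zero_mul, add_zero,
    zero_add, sub_zero, Lm_zero3, tri_zero]

/-- the data (letters `z = a3`, `g = b3`, `h = e3`). -/
def roA : RO (T3 F2 × T3 F2 × T3 F2) where
  z := tri (Lm F2 (a3 F2)) 0 0 0
  X := 0
  e := tri 0 delta 0 1
  f := tri (Lm F2 (b3 F2)) (Lm F2 (e3 F2)) 0 0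
  ζ := tri zeta0 zeta1 (LinearMap.mulRight F2 (e3 F2)) 0
  α := 0
  β := 0
  n0 := (1, 0, 0)
  ζz := by
    simp only [tri_lie, lie0r, lie0l, lie_zeta0_Lm, lie_zeta1_Lm, lie_R_Lm, zeta0_a, zeta1_a,
      mul_zero, zero_mul, add_zero, zero_add, sub_zero, Lm_zero3, tri_zero]
  ζX := by rw [lie0r, lie0l]
  ζe := by
    rw [lie_z_e]
    simp only [tri_lie, lie0r, lie0l, lie1r, lie_zeta0_delta, mul_zero, mul_one, zero_mul, add_zero,
      zero_add, sub_zero, add_assoc, add_self_two]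
  ζf := by
    have h1 : ⁅Lm F2 (a3 F2) * Lm F2 (a3 F2), delta⁆ = Lm F2 ⁅a3 F2, e3 F2⁆ := by
      rw [← RO.Lm_mul3, lie_Lm_delta, delta, der_mul, ← delta, delta_a, Ring.lie_def, sub_eq_two]
    simp only [tri_add, tri_mul, tri_lie, lie0r, lie0l, lie1r, lie_zeta0_Lm, lie_zeta1_Lm, lie_R_Lm,
      zeta0_b, zeta0_e, zeta1_b, lie_Lm3, h1, mul_zero, zero_mul, add_zero, zero_add, sub_zero,
      add_self_two, mul_one, one_mul]
  αz := lie0l _
  αX := by simp only [lie0l, add_zero]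
  αe := by simp only [lie0l, lie_f_e, add_zero]
  αf := by simp only [lie0l, lie_f_e, add_zero]
  βz := lie0l _
  βX := lie0l _
  βe := by rw [f_add_lie, lie_g_e, lie0l]
  βf := by rw [f_add_lie, lie_g_e, lie0l, lie0r]
  ζ0 := by simp [zeta0, zeta1]
  α0 := rfl
  β0 := rfl

theorem e_tri_e (a b c d : Module.End F2 (T3 F2)) :
    tri 0 delta 0 1 * tri a b c d * tri 0 delta 0 1 = 0 := by
  simp only [tri_mul, mul_zero, zero_mul, add_zero, zero_add, tri_zero]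

theorem adp_z_e (k : ℕ) : ∃ b d, adp roA.z k roA.e = tri 0 b 0 d ∧
    adp (roA.z + roA.e) k roA.e = tri 0 b 0 d := by
  induction k with
  | zero => exact ⟨_, _, rfl, rfl⟩
  | succ k ih =>
    obtain ⟨b, d, h1, h2⟩ := ih
    refine ⟨⁅Lm F2 (a3 F2), b⁆, ⁅Lm F2 (a3 F2), d⁆, ?_, ?_⟩
    · rw [adp_succ, h1]
      simp only [roA, tri_lie, lie0r, lie0l, mul_zero, zero_mul, add_zero, zero_add, sub_zero]
    · rw [adp_succ, h2]
      simp only [roA, tri_add, tri_lie, lie0r, lie0l, mul_zero, zero_mul, add_zero, zero_add,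
        sub_zero]

/-- hexagon at `(z,e)` and antisymmetry, then `ev_lin`. -/
theorem roA_T4 {n : ℕ} {ψ : T F2} (h : GrtR F2 n ψ) (hn : 2 ≤ n) :
    ev F2 (roA.z + roA.e) roA.z ψ = 0 := by
  have h1 := hex_ev h.hex roA.z roA.e
  rw [hex, neg_eq_two, sub_eq_two, ev_swap2 h.asy roA.e,
    ev_lin h.lie hn roA.z roA.e, ev_lin h.lie hn (roA.z + roA.e) roA.e] at h1
  · obtain ⟨b, d, h2, h3⟩ := adp_z_e (n - 1)
    rwa [h2, h3, add_self_two, zero_add] at h1
  · intro k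
    obtain ⟨a, b, c, d, hk⟩ := tri_pow (Lm F2 (a3 F2) + 0) (0 + delta) (0 + 0) (0 + 1) k
    rw [← tri_add] at hk
    exact (congrArg (fun t => roA.e * t * roA.e) hk).trans (e_tri_e _ _ _ _)
  · intro k
    obtain ⟨a, b, c, d, hk⟩ := tri_pow (Lm F2 (a3 F2)) 0 0 0 k
    exact (congrArg (fun t => roA.e * t * roA.e) hk).trans (e_tri_e _ _ _ _)

theorem zeta0_adp (i : ℕ) : zeta0 (adp (a3 F2) i (b3 F2)) = adp (a3 F2) (i + 1) (b3 F2) := by
  induction i with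
  | zero => exact zeta0_b
  | succ i ih => rw [adp_succ, zeta0_lie, zeta0_a, lie0l, zero_add, ih, ← adp_succ]

theorem roA_adp (i : ℕ) : adp (roA.ζ + roA.e) i roA.f =
    tri (Lm F2 (adp (a3 F2) i (b3 F2))) (Lm F2 (uu i)) 0 0 := by
  induction i with
  | zero => rfl
  | succ i ih =>
    have h1 : ∀ t, ⁅zeta1 + delta, Lm F2 t⁆ = Lm F2 ((zeta1 + delta) t) := by
      intro t; rw [zeta1, delta, ← der_add, lie_der_Lm]
    rw [adp_succ, ih]
    simp only [roA, tri_add, tri_lie, lie0r, lie0l, lie1l, lie_zeta0_Lm, h1, lie_R_Lm, zeta0_adp,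
      mul_zero, zero_mul, add_zero, zero_add, sub_zero, uu, Lm_add_T3]
    rw [add_comm (zeta0 (uu i))]

theorem lift_tri {I : Type} (v u : I → T3 F2) (P : FreeAlgebra F2 I) :
    FreeAlgebra.lift F2 (fun i => tri (Lm F2 (v i)) (Lm F2 (u i)) 0 0) P =
      tri (Lm F2 (FreeAlgebra.lift F2 v P)) (Lm F2 (dA F2 v u P)) 0 0 := by
  induction P using FreeAlgebra.induction with
  | grade0 c =>
    apply LinearMap.ext; rintro ⟨p0, p1, q⟩
    simp [Algebra.algebraMap_eq_smul_one]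
  | grade1 i => simp
  | mul v w hv hw =>
    rw [map_mul, hv, hw, tri_mul, map_mul, dA_mul, RO.Lm_mul3, RO.Lm_add3, RO.Lm_mul3, RO.Lm_mul3]
    simp only [mul_zero, zero_mul, add_zero]
    rw [add_comm]
  | add v w hv hw =>
    rw [map_add, hv, hw, tri_add, map_add, map_add, RO.Lm_add3, RO.Lm_add3, add_zero]

/-- second component of `roA.read3`. -/
theorem dA_uu_eq_zero {n : ℕ} {G : TV} (h : GrtR F2 n (jV G)) (hG : G ∈ LS F2 (ι F2) wV n)
    (hn : 2 ≤ n) : dA F2 (fun i => adp (a3 F2) i (b3 F2)) uu (pY G) = 0 := by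
  have h0 := roA.read3 h hn
  have ee : roA.e * roA.e = 0 := by
    simp only [roA, tri_mul, mul_zero, zero_mul, add_zero, tri_zero]
  have hg : roA.f + ⁅roA.z, roA.e⁆ = tri (Lm F2 (b3 F2)) 0 0 0 := f_add_lie
  have t4 : evV (roA.z + roA.e) roA.X 0 G = 0 := by
    refine lift_eq_zero_of_commute hG _ (fun i j => ?_) (fun i _ => ?_)
    · simp [roA]
    · simp [roA]
  have t1 : evV roA.z roA.X (tri (Lm F2 (b3 F2)) 0 0 0) G =
      tri (Lm F2 (FreeAlgebra.lift F2 (fun i => adp (a3 F2) i (b3 F2)) (pY G))) 0 0 0 := by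
    have : ∀ i, adp roA.z i (tri (Lm F2 (b3 F2)) 0 0 0) =
        tri (Lm F2 (adp (a3 F2) i (b3 F2))) (Lm F2 ((0 : ℕ → T3 F2) i)) 0 0 := by
      intro i
      induction i with
      | zero => simp [Lm_zero3]
      | succ i ih =>
        rw [adp_succ, ih]
        simp only [roA, tri_lie, lie0r, lie0l, lie_Lm3, Pi.zero_apply, Lm_zero3, adp_succ, mul_zero,
          add_zero, sub_zero]
    rw [show roA.X = 0 from rfl, evV_zero_left, evY]
    simp only [this]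
    rw [lift_tri, dA_zero, Lm_zero3]
  rw [ee, add_zero, add_zero, hg, roA_T4 h hn, t4, t1, show roA.β = 0 from rfl,
    show roA.α = 0 from rfl, zero_add, evV_zero_left, evY] at h0
  simp only [roA_adp] at h0
  rw [lift_tri] at h0
  simpa [roA] using congrArg (fun p => p.2.1) h0

end Crest.Agent.R10
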