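import Crest.Agent.R10.U.Hat
import Crest.Agent.R10.U.Cells

/-! # Row 10, block U: reading the cells through the 2×2 block representation. -/

noncomputable section
namespace Crest.Agent.R10
open FreeAlgebra (ι)
namespace RO
variable {N : Type} [AddCommGroup N] [Module F2 N] (R : RO N)

theorem rhat_one : R.rhat 1 = (R.n0, 0) := by
  simp [rhat]
theorem rhat_Lm (t w : T3 F2) : R.rhat (Lm F2 t w) = R.rho t (R.rhat w) := by
  simp [rhat]
/-- `⁅D, ρ t⁆ = ρ (der u t)` for all `t` (both sides are derivations along `ρ`: `eq_dA`,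
`lift_der`, or induction on `t`); apply to `(n0,0)`. -/
theorem rhat_der (u : Fin 3 → T3 F2) (D : Module.End F2 (N × N))
    (h : ∀ i, ⁅D, R.rho (ι F2 i)⁆ = R.rho (u i)) (h0 : D (R.n0, 0) = 0) (w : T3 F2) :
    R.rhat (der F2 u w) = D (R.rhat w) := by
  have key : ∀ t, ⁅D, R.rho t⁆ = R.rho (der F2 u t) := by
    intro t
    induction t using FreeAlgebra.induction with
    | grade0 c => simp [Algebra.algebraMap_eq_smul_one, Ring.lie_def]
    | grade1 i => simp [h]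
    | mul v w hv hw =>
      rw [der_mul, map_add, map_mul, map_mul, map_mul, ← hv, ← hw]
      simp only [Ring.lie_def, mul_sub, sub_mul, mul_assoc]; abel
    | add v w hv hw =>
      rw [map_add, map_add, map_add, ← hv, ← hw]
      simp only [Ring.lie_def, mul_add, add_mul]; abel
  simp [rhat, ← key, Ring.lie_def, h0]
theorem rho_a : R.rho (a3 F2) = R.mA := by simp [rho, a3]
theorem rho_b : R.rho (b3 F2) = R.mB := by simp [rho, b3]
theorem rho_e : R.rho (e3 F2) = R.mE := by simp [rho, e3]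
theorem rho_ι0 : R.rho (ι F2 0) = R.mA := R.rho_a
theorem rho_ι1 : R.rho (ι F2 1) = R.mB := R.rho_b
theorem rho_ι2 : R.rho (ι F2 2) = R.mE := R.rho_e
theorem tAw_a : tAw F2 (a3 F2) = ⁅a3 F2, e3 F2⁆ := by rw [tAw]; exact der_ι _ 0
theorem tAw_b : tAw F2 (b3 F2) = 0 := by rw [tAw]; exact der_ι _ 1
theorem tAw_e : tAw F2 (e3 F2) = ⁅e3 F2, a3 F2⁆ := by rw [tAw]; exact der_ι _ 2
theorem tBw_a : tBw F2 (a3 F2) = 0 := by rw [tBw]; exact der_ι _ 0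
theorem tBw_b : tBw F2 (b3 F2) = ⁅b3 F2, e3 F2⁆ := by rw [tBw]; exact der_ι _ 1
theorem tBw_e : tBw F2 (e3 F2) = ⁅e3 F2, b3 F2⁆ := by rw [tBw]; exact der_ι _ 2
theorem tAw_lie (v w : T3 F2) : tAw F2 ⁅v, w⁆ = ⁅tAw F2 v, w⁆ + ⁅v, tAw F2 w⁆ := der_lie _ _ _
theorem tBw_lie (v w : T3 F2) : tBw F2 ⁅v, w⁆ = ⁅tBw F2 v, w⁆ + ⁅v, tBw F2 w⁆ := der_lie _ _ _
theorem Lm_mul3 (s t : T3 F2) : Lm F2 (s * t) = Lm F2 s * Lm F2 t := map_mul (Algebra.lmul F2 _) s t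
theorem Lm_add3 (s t : T3 F2) : Lm F2 (s + t) = Lm F2 s + Lm F2 t := map_add (Algebra.lmul F2 _) s t
theorem lie_tAw_Lm (t : T3 F2) : ⁅tAw F2, Lm F2 t⁆ = Lm F2 (tAw F2 t) := lie_der_Lm _ _
theorem lie_tBw_Lm (t : T3 F2) : ⁅tBw F2, Lm F2 t⁆ = Lm F2 (tBw F2 t) := lie_der_Lm _ _

theorem rhat_ζ (w : T3 F2) : R.rhat ((tAw F2 + tBw F2) w) = R.hζ (R.rhat w) := by
  rw [tAw, tBw, ← der_add]
  refine R.rhat_der _ _ (fun i => ?_) (by simp [hζ, R.ζ0]) w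
  fin_cases i
  · simpa [rho_ι0, map_lie', rho_a, rho_e] using R.hζ_mA
  · simpa [rho_ι1, map_lie', rho_b, rho_e] using R.hζ_mB
  · simpa [rho_ι2, map_lie', rho_a, rho_b, rho_e] using R.hζ_mE
/-- `der_sq`. -/
theorem rhat_α (w : T3 F2) : R.rhat ((tAw F2 * tAw F2) w) = R.hα (R.rhat w) := by
  have h := der_sq ![⁅a3 F2, e3 F2⁆, 0, ⁅e3 F2, a3 F2⁆]
  rw [← tAw] at h
  rw [h]
  refine R.rhat_der _ _ (fun i => ?_) (by simp [hα, R.α0]) w
  fin_cases i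
  · simpa [rho_ι0, tAw_lie, tAw_a, tAw_e, map_lie', rho_a, rho_e] using R.hα_mA
  · simpa [rho_ι1] using R.hα_mB
  · simpa [rho_ι2, tAw_lie, tAw_a, tAw_e, map_lie', rho_a, rho_e] using R.hα_mE
theorem rhat_β (w : T3 F2) : R.rhat ((tBw F2 * tBw F2) w) = R.hβ (R.rhat w) := by
  have h := der_sq ![0, ⁅b3 F2, e3 F2⁆, ⁅e3 F2, b3 F2⁆]
  rw [← tBw] at h
  rw [h]
  refine R.rhat_der _ _ (fun i => ?_) (by simp [hβ, R.β0]) w
  fin_cases i
  · simpa [rho_ι0] using R.hβ_mA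
  · simpa [rho_ι1, tBw_lie, tBw_b, tBw_e, map_lie', rho_b, rho_e] using R.hβ_mB
  · simpa [rho_ι2, tBw_lie, tBw_b, tBw_e, map_lie', rho_b, rho_e] using R.hβ_mE

/-- upper triangular blocks act on `N × 0` through the `(0,0)` entry (`intertwine_evV` with
`LinearMap.inl`). -/
theorem evV_mat (p q s p' q' s' p'' q'' s'' : Module.End F2 N) (G : TV) (m : N) :
    evV (mat p q 0 s) (mat p' q' 0 s') (mat p'' q'' 0 s'') G (m, 0) = (evV p p' p'' G m, 0) := by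
  exact (intertwine_evV (LinearMap.inl F2 N N) p p' p'' _ _ _ (fun m => by simp) (fun m => by simp)
    (fun m => by simp) G m).symm
theorem ev_mat (p q s p' q' s' : Module.End F2 N) (ψ : T F2) (m : N) :
    ev F2 (mat p q 0 s) (mat p' q' 0 s') ψ (m, 0) = (ev F2 p p' ψ m, 0) := by
  exact (intertwine_ev (LinearMap.inl F2 N N) p p' _ _ (fun m => by simp) (fun m => by simp)
    ψ m).symm

theorem rhat_apply (t : T3 F2) : R.rhat t = R.rho t (R.n0, 0) := rfl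
theorem rho_z : R.rho z3 = mat R.z (R.X + (R.z + R.e) * (R.z + R.e) + R.f) 0 R.z := by
  rw [z3, map_add, map_add, rho_a, rho_b, rho_e, mA_add_mB_add_mE]
theorem rho_z' : R.rho z3 = R.mA + R.mB + R.mE := by
  rw [z3, map_add, map_add, rho_a, rho_b, rho_e]
theorem BE_sq : ∃ q s, (R.mB + R.mE) * (R.mB + R.mE) =
    mat (R.f + ⁅R.z, R.e⁆ + R.e * R.e) q 0 s := by
  have : (R.mB + R.mE) * (R.mB + R.mE) = R.mB * R.mB + ⁅R.mB, R.mE⁆ + R.mE * R.mE := by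
    apply eq_of_sub_eq_two (R.mE * R.mB); simp only [Ring.lie_def, mul_add, add_mul]; abel
  rw [this, mB_sq, lie_mB_mE, zero_add, mE, mat_mul, mat_add]
  exact ⟨_, _, mat_congr (by simp) rfl (by simp) rfl⟩
theorem AE_sq : ∃ q s, (R.mA + R.mE) * (R.mA + R.mE) = mat (R.X + R.f + R.e * R.e) q 0 s := by
  have : (R.mA + R.mE) * (R.mA + R.mE) = R.mA * R.mA + ⁅R.mA, R.mE⁆ + R.mE * R.mE := by
    apply eq_of_sub_eq_two (R.mE * R.mA); simp only [Ring.lie_def, mul_add, add_mul]; abel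
  rw [this, mA_sq, lie_mA_mE, mE, mat_mul, mat_add, mat_add]
  exact ⟨_, _, mat_congr (by simp) rfl (by simp) rfl⟩

/-- Apply `rhat` to `cell3_simp`.  Operator term: `ev_jV`, `(tAw+tBw+Le+tBw)² = tAw² + L⁅a,e⁆ + L(e²)`
(`lie_der_Lm`), `intertwine_evV` along `rhat`, then `evV_mat`.  Other terms: `map_ev`, `ev_jV`;
`ρ z = mA+mB+mE`, `(ρ z + mA)² = (mB+mE)² = mat (f+[z,e]+e²) * 0 *`, `(ρ z + mE + mA)² = mB² = 0`. -/
theorem read3 {n : ℕ} {G : TV} (h : GrtR F2 n (jV G)) (hn : 2 ≤ n) :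
    (evV R.z R.X (R.f + ⁅R.z, R.e⁆ + R.e * R.e) G +
      evV (R.ζ + R.e) R.β (R.α + R.f + R.e * R.e) G +
      ev F2 (R.z + R.e) R.z (jV G) + evV (R.z + R.e) R.X 0 G) R.n0 = 0 := by
  have h0 := congrArg R.rhat (cell3_simp h hn)
  rw [map_zero, map_add, map_add, map_add] at h0
  -- term 1
  have t1 : R.rhat (ev F2 z3 (a3 F2) (jV G)) =
      (evV R.z R.X (R.f + ⁅R.z, R.e⁆ + R.e * R.e) G R.n0, 0) := by
    obtain ⟨q, s, hq⟩ := R.BE_sq
    have e1 : R.rho z3 + R.mA = R.mB + R.mE := by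
      rw [rho_z']; apply eq_of_sub_eq_two R.mA; abel
    rw [rhat_apply, map_ev, ev_jV, rho_a, e1, hq, mA_sq, rho_z, evV_mat]
  have t2 : R.rhat (ev F2 (tAw F2 + tBw F2 + Lm F2 (e3 F2)) (tBw F2) (jV G) 1) =
      (evV (R.ζ + R.e) R.β (R.α + R.f + R.e * R.e) G R.n0, 0) := by
    have e1 : tAw F2 + tBw F2 + Lm F2 (e3 F2) + tBw F2 = tAw F2 + Lm F2 (e3 F2) := by
      apply eq_of_sub_eq_two (tBw F2); abel
    have e2 : (tAw F2 + Lm F2 (e3 F2)) * (tAw F2 + Lm F2 (e3 F2)) =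
        tAw F2 * tAw F2 + Lm F2 ⁅a3 F2, e3 F2⁆ + Lm F2 (e3 F2 * e3 F2) := by
      have : (⁅a3 F2, e3 F2⁆ : T3 F2) = tAw F2 (e3 F2) := by
        rw [tAw_e]; apply eq_of_sub_eq_two ⁅a3 F2, e3 F2⁆; simp only [Ring.lie_def]; abel
      rw [this, ← lie_tAw_Lm, Lm_mul3]
      apply eq_of_sub_eq_two (Lm F2 (e3 F2) * tAw F2); simp only [Ring.lie_def, mul_add, add_mul]; abel
    rw [ev_jV, e1, e2, intertwine_evV R.rhat _ _ _ (R.hζ + R.mE) R.hβ
      (R.hα + ⁅R.mA, R.mE⁆ + R.mE * R.mE), rhat_one, lie_mA_mE, hζ, hα, hβ, mE, mat_mul, mat_add,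
      mat_add, mat_add]
    · simp only [add_zero, mul_zero, zero_mul, evV_mat]
    · intro m; rw [LinearMap.add_apply, map_add, rhat_ζ, rhat_Lm, rho_e]; rfl
    · exact R.rhat_β
    · intro m
      rw [LinearMap.add_apply, LinearMap.add_apply, map_add, map_add, rhat_α, rhat_Lm, rhat_Lm,
        map_lie', map_mul, rho_a, rho_e]; rfl
  have t3 : R.rhat (ev F2 (z3 + e3 F2) z3 (jV G)) = (ev F2 (R.z + R.e) R.z (jV G) R.n0, 0) := by
    rw [rhat_apply, map_ev, map_add, rho_z, rho_e, mE, mat_add, add_zero, ev_mat]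
  have t4 : R.rhat (ev F2 (z3 + e3 F2) (a3 F2) (jV G)) = (evV (R.z + R.e) R.X 0 G R.n0, 0) := by
    have e1 : R.rho (z3 + e3 F2) + R.mA = R.mB := by
      rw [map_add, rho_z', rho_e]; apply eq_of_sub_eq_two (R.mA + R.mE); abel
    rw [rhat_apply, map_ev, ev_jV, rho_a, e1, mB_sq, mA_sq, map_add, rho_z, rho_e, mE, mat_add,
      add_zero, ← mat_zero, evV_mat]
  rw [t1, t2, t3, t4] at h0
  simpa using congrArg Prod.fst h0

/-- Apply `rhat` to `cell1_simp`: `(La+tAw)² = L(a²) + tAw² + L⁅a,e⁆`,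
`L(z+e)+tAw+tBw+La+tAw = Lb+tBw`, `(Lb+tBw)² = L(b²) + tBw² + L⁅b,e⁆`,
`(mA+mE)² = mat (X+f+e²) * 0 *`. -/
theorem read1 {n : ℕ} {G : TV} (h : GrtR F2 n (jV G)) (hn : 2 ≤ n) :
    (ev F2 R.e R.z (jV G) +
      evV (R.z + R.e + R.ζ) (R.X + R.α + R.f) (R.β + (R.f + ⁅R.z, R.e⁆)) G +
      evV R.z (R.X + R.f + R.e * R.e) 0 G + evV R.e (R.X + R.f + R.e * R.e) R.X G) R.n0 = 0 := by
  have h0 := congrArg R.rhat (cell1_simp h hn)
  rw [map_zero, map_add, map_add, map_add] at h0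
  obtain ⟨q, s, hq⟩ := R.AE_sq
  have t1 : R.rhat (ev F2 (e3 F2) z3 (jV G)) = (ev F2 R.e R.z (jV G) R.n0, 0) := by
    rw [rhat_apply, map_ev, rho_z, rho_e, mE, ev_mat]
  have t2 : R.rhat (ev F2 (Lm F2 (z3 + e3 F2) + (tAw F2 + tBw F2)) (Lm F2 (a3 F2) + tAw F2)
      (jV G) 1) =
      (evV (R.z + R.e + R.ζ) (R.X + R.α + R.f) (R.β + (R.f + ⁅R.z, R.e⁆)) G R.n0, 0) := by
    have e1 : Lm F2 (z3 + e3 F2) + (tAw F2 + tBw F2) + (Lm F2 (a3 F2) + tAw F2) =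
        Lm F2 (b3 F2) + tBw F2 := by
      simp only [z3, Lm_add3]
      apply eq_of_sub_eq_two (Lm F2 (a3 F2) + Lm F2 (e3 F2) + tAw F2); abel
    have e2 : (Lm F2 (a3 F2) + tAw F2) * (Lm F2 (a3 F2) + tAw F2) =
        Lm F2 (a3 F2 * a3 F2) + tAw F2 * tAw F2 + Lm F2 ⁅a3 F2, e3 F2⁆ := by
      rw [← tAw_a, ← lie_tAw_Lm, Lm_mul3]
      apply eq_of_sub_eq_two (Lm F2 (a3 F2) * tAw F2); simp only [Ring.lie_def, mul_add, add_mul]; abel
    have e3' : (Lm F2 (b3 F2) + tBw F2) * (Lm F2 (b3 F2) + tBw F2) =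
        Lm F2 (b3 F2 * b3 F2) + tBw F2 * tBw F2 + Lm F2 ⁅b3 F2, e3 F2⁆ := by
      rw [← tBw_b, ← lie_tBw_Lm, Lm_mul3]
      apply eq_of_sub_eq_two (Lm F2 (b3 F2) * tBw F2); simp only [Ring.lie_def, mul_add, add_mul]; abel
    rw [ev_jV, e1, e2, e3', intertwine_evV R.rhat _ _ _ (R.rho z3 + R.mE + R.hζ)
      (R.mA * R.mA + R.hα + ⁅R.mA, R.mE⁆) (R.mB * R.mB + R.hβ + ⁅R.mB, R.mE⁆), rhat_one,
      lie_mA_mE, lie_mB_mE, mA_sq, mB_sq, rho_z, hζ, hα, hβ, mE, zero_add, mat_add,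
      mat_add, mat_add, mat_add, mat_add]
    · simp only [add_zero, evV_mat]
    · intro m
      rw [LinearMap.add_apply, map_add, rhat_ζ, rhat_Lm, map_add, rho_e]; rfl
    · intro m
      rw [LinearMap.add_apply, LinearMap.add_apply, map_add, map_add, rhat_α, rhat_Lm, rhat_Lm,
        map_lie', map_mul, rho_a, rho_e]; rfl
    · intro m
      rw [LinearMap.add_apply, LinearMap.add_apply, map_add, map_add, rhat_β, rhat_Lm, rhat_Lm,
        map_lie', map_mul, rho_b, rho_e]; rfl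
  have t3 : R.rhat (ev F2 z3 (a3 F2 + e3 F2) (jV G)) =
      (evV R.z (R.X + R.f + R.e * R.e) 0 G R.n0, 0) := by
    have e1 : R.rho z3 + (R.mA + R.mE) = R.mB := by
      rw [rho_z']; apply eq_of_sub_eq_two (R.mA + R.mE); abel
    rw [rhat_apply, map_ev, ev_jV, map_add, rho_a, rho_e, e1, hq, mB_sq, rho_z, ← mat_zero, evV_mat]
  have t4 : R.rhat (ev F2 (e3 F2) (a3 F2 + e3 F2) (jV G)) =
      (evV R.e (R.X + R.f + R.e * R.e) R.X G R.n0, 0) := by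
    have e1 : R.mE + (R.mA + R.mE) = R.mA := by
      apply eq_of_sub_eq_two R.mE; abel
    rw [rhat_apply, map_ev, ev_jV, map_add, rho_a, rho_e, e1, hq, mA_sq, mE, evV_mat]
  rw [t1, t2, t3, t4] at h0
  simpa using congrArg Prod.fst h0

end RO
end Crest.Agent.R10
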